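import Vale.Agent.P176.LinDef

/-!
P176: conversion between the definitions of the statement and those of the proofs.
-/

namespace Vale.Agent.P176

variable {A : Type} [Ring A] {r : ℕ} {e : Fin r → A} {M : Type} [AddCommGroup M] [Module A M]

/-- from the statement to the proofs -/
def MinRes.toM (R : MinRes e M) : MRes e M where
  J := R.J
  fin := R.fin
  v := R.v
  ε := R.ε
  δ := R.δ
  surj := R.surj
  exact_zero := by
    ext f
    constructor
    · rintro ⟨g, rfl⟩
      exact (R.exact_zero _).2 ⟨g, rfl⟩
    · intro hf
      exact (R.exact_zero f).1 hf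
  exact := by
    intro i
    ext f
    constructor
    · rintro ⟨g, rfl⟩
      exact (R.exact i _).2 ⟨g, rfl⟩
    · intro hf
      exact (R.exact i f).1 hf
  minimal := fun i f j => R.minimal i f j

/-- from the proofs to the statement -/
def MRes.toS (R : MRes e M) : MinRes e M where
  J := R.J
  fin := R.fin
  v := R.v
  δ := R.δ
  ε := R.ε
  surj := R.surj
  exact_zero := by
    intro f
    constructor
    · intro hf
      have h1 : f ∈ LinearMap.ker R.ε := hf
      rw [← R.exact_zero] at h1
      exact h1
    · rintro ⟨g, rfl⟩
      have h1 : R.δ 0 g ∈ LinearMap.ker R.ε := by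
        rw [← R.exact_zero]
        exact ⟨g, rfl⟩
      exact h1
  exact := by
    intro i f
    constructor
    · intro hf
      have h1 : f ∈ LinearMap.ker (R.δ i) := hf
      rw [← R.exact i] at h1
      exact h1
    · rintro ⟨g, rfl⟩
      have h1 : R.δ (i + 1) g ∈ LinearMap.ker (R.δ i) := by
        rw [← R.exact i]
        exact ⟨g, rfl⟩
      exact h1
  minimal := fun i f j => R.minimal i f j

theorem linDef_iff (k : Type) [Field k] [Algebra k A] (R : MinRes e M) (l : ℕ) :
    R.toCx.LinDefLE k l ↔ R.toM.LinDefLE k l := Iff.rfl

end Vale.Agent.P176
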