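import Vale.Agent.P176.Defs

/-!
P176: the Euler polynomial of a finite graded resolution.
-/

namespace Vale.Agent.P176

variable {k A : Type} [Field k] [Ring A] [Algebra k A]

/-- the space `e_u A_t e_v` -/
def corner (𝒜 : ℕ → Submodule k A) {r : ℕ} (e : Fin r → A) (u v : Fin r) (t : ℕ) :
    Submodule k A where
  carrier := {a | a ∈ 𝒜 t ∧ e u * a = a ∧ a * e v = a}
  add_mem' := by
    rintro a b ⟨h1, h2, h3⟩ ⟨h4, h5, h6⟩
    exact ⟨add_mem h1 h4, by rw [mul_add, h2, h5], by rw [add_mul, h3, h6]⟩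
  zero_mem' := ⟨zero_mem _, by rw [mul_zero], by rw [zero_mul]⟩
  smul_mem' := by
    rintro c a ⟨h1, h2, h3⟩
    exact ⟨Submodule.smul_mem _ c h1, by rw [mul_smul_comm, h2], by rw [smul_mul_assoc, h3]⟩

theorem mem_corner {𝒜 : ℕ → Submodule k A} {r : ℕ} {e : Fin r → A} {u v : Fin r} {t : ℕ}
    {a : A} : a ∈ corner 𝒜 e u v t ↔ a ∈ 𝒜 t ∧ e u * a = a ∧ a * e v = a := Iff.rfl

/-- dimension of `e_u A_t e_v` -/
noncomputable def cdim (𝒜 : ℕ → Submodule k A) {r : ℕ} (e : Fin r → A) (u v : Fin r) (t : ℕ) :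
    ℕ := Module.finrank k (corner 𝒜 e u v t)

/-- the standing hypotheses on the algebra -/
structure Alg (𝒜 : ℕ → Submodule k A) {r : ℕ} (e : Fin r → A) (L : ℕ) : Prop where
  comp : CompleteOrthogonalIdempotents e
  ne : ∀ v, e v ≠ 0
  zero : 𝒜 0 = Submodule.span k (Set.range e)
  top : ∀ s, L < s → 𝒜 s = ⊥

theorem e_mul_e {r : ℕ} {e : Fin r → A} (he : CompleteOrthogonalIdempotents e) (u v : Fin r) :
    e u * e v = if u = v then e v else 0 := by
  split_ifs with h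
  · subst h
    exact he.idem u
  · exact he.ortho h

theorem mem_zero {𝒜 : ℕ → Submodule k A} {r : ℕ} {e : Fin r → A} {L : ℕ} (h : Alg 𝒜 e L)
    {a : A} (ha : a ∈ 𝒜 0) (u : Fin r) : ∃ c : k, e u * a = c • e u := by
  rw [h.zero] at ha
  refine Submodule.span_induction (p := fun a _ => ∃ c : k, e u * a = c • e u) ?_ ?_ ?_ ?_ ha
  · rintro x ⟨w, rfl⟩
    rw [e_mul_e h.comp]
    by_cases huw : u = w
    · subst huw
      exact ⟨1, by simp⟩
    · exact ⟨0, by simp [huw]⟩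
  · exact ⟨0, by simp⟩
  · rintro x y _ _ ⟨c, hc⟩ ⟨c', hc'⟩
    exact ⟨c + c', by rw [mul_add, hc, hc', add_smul]⟩
  · rintro c x _ ⟨c', hc'⟩
    exact ⟨c * c', by rw [mul_smul_comm, hc', mul_smul]⟩

theorem cdim_zero {𝒜 : ℕ → Submodule k A} {r : ℕ} {e : Fin r → A} {L : ℕ} (h : Alg 𝒜 e L)
    (u v : Fin r) : cdim 𝒜 e u v 0 = if u = v then 1 else 0 := by
  unfold cdim
  split_ifs with huv
  · subst huv
    have h1 : corner 𝒜 e u u 0 = Submodule.span k {e u} := by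
      ext a
      rw [mem_corner, Submodule.mem_span_singleton]
      constructor
      · rintro ⟨h1, h2, h3⟩
        obtain ⟨c, hc⟩ := mem_zero h h1 u
        exact ⟨c, by rw [← hc, h2]⟩
      · rintro ⟨c, rfl⟩
        have h4 : e u * e u = e u := h.comp.idem u
        refine ⟨?_, ?_, ?_⟩
        · rw [h.zero]
          exact Submodule.smul_mem _ c (Submodule.subset_span ⟨u, rfl⟩)
        · rw [mul_smul_comm, h4]
        · rw [smul_mul_assoc, h4]
    rw [h1]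
    exact finrank_span_singleton (h.ne u)
  · have h1 : corner 𝒜 e u v 0 = ⊥ := by
      rw [eq_bot_iff]
      intro a ha
      obtain ⟨h1, h2, h3⟩ := mem_corner.1 ha
      obtain ⟨c, hc⟩ := mem_zero h h1 u
      rw [Submodule.mem_bot]
      rw [← h3, ← h2, hc, smul_mul_assoc, e_mul_e h.comp, if_neg huv, smul_zero]
    rw [h1, finrank_bot]

theorem cdim_top {𝒜 : ℕ → Submodule k A} {r : ℕ} {e : Fin r → A} {L : ℕ} (h : Alg 𝒜 e L)
    (u v : Fin r) {t : ℕ} (ht : L < t) : cdim 𝒜 e u v t = 0 := by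
  unfold cdim
  have h1 : corner 𝒜 e u v t = ⊥ := by
    rw [eq_bot_iff]
    intro a ha
    have h2 := (mem_corner.1 ha).1
    rw [h.top t ht] at h2
    exact h2
  rw [h1, finrank_bot]

/-! ### the homogeneous parts of the projective modules -/

section parts

variable {r : ℕ} {e : Fin r → A}

/-- `e_u (P)_s` -/
def X (𝒜 : ℕ → Submodule k A) (e : Fin r → A) {J : Type} (v : J → Fin r) (d : J → ℕ)
    (u : Fin r) (s : ℕ) : Submodule k (Proj e v) where
  carrier := {f | Homog 𝒜 d s (f : J → A) ∧ e u • f = f}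
  add_mem' := by
    rintro f g ⟨h1, h2⟩ ⟨h3, h4⟩
    refine ⟨fun j => ⟨fun hj => ?_, fun hj => ?_⟩, by rw [smul_add, h2, h4]⟩
    · exact add_mem ((h1 j).1 hj) ((h3 j).1 hj)
    · have h5 := (h1 j).2 hj
      have h6 := (h3 j).2 hj
      change (f : J → A) j + (g : J → A) j = 0
      rw [h5, h6, add_zero]
  zero_mem' := ⟨fun j => ⟨fun _ => zero_mem _, fun _ => rfl⟩, by rw [smul_zero]⟩
  smul_mem' := by
    rintro c f ⟨h1, h2⟩
    refine ⟨fun j => ⟨fun hj => ?_, fun hj => ?_⟩, ?_⟩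
    · exact Submodule.smul_mem _ c ((h1 j).1 hj)
    · have h5 := (h1 j).2 hj
      change c • (f : J → A) j = 0
      rw [h5, smul_zero]
    · rw [smul_comm, h2]

theorem mem_X {𝒜 : ℕ → Submodule k A} {J : Type} {v : J → Fin r} {d : J → ℕ}
    {u : Fin r} {s : ℕ} {f : Proj e v} :
    f ∈ X 𝒜 e v d u s ↔ Homog 𝒜 d s (f : J → A) ∧ e u • f = f := Iff.rfl

/-- the component of `X` at the index `j` -/
def Y (𝒜 : ℕ → Submodule k A) (e : Fin r → A) {J : Type} (v : J → Fin r) (d : J → ℕ)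
    (u : Fin r) (s : ℕ) (j : J) : Submodule k A :=
  if d j ≤ s then corner 𝒜 e u (v j) (s - d j) else ⊥

theorem mem_Y {𝒜 : ℕ → Submodule k A} {J : Type} {v : J → Fin r} {d : J → ℕ}
    {u : Fin r} {s : ℕ} {j : J} {a : A} :
    a ∈ Y 𝒜 e v d u s j ↔
      ((d j ≤ s → a ∈ 𝒜 (s - d j)) ∧ (s < d j → a = 0)) ∧ e u * a = a ∧ a * e (v j) = a := by
  unfold Y
  split_ifs with h
  · rw [mem_corner]
    constructor
    · rintro ⟨h1, h2, h3⟩
      exact ⟨⟨fun _ => h1, fun h' => absurd h (not_le.2 h')⟩, h2, h3⟩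
    · rintro ⟨⟨h1, _⟩, h2, h3⟩
      exact ⟨h1 h, h2, h3⟩
  · rw [Submodule.mem_bot]
    constructor
    · rintro rfl
      exact ⟨⟨fun _ => zero_mem _, fun _ => rfl⟩, mul_zero _, zero_mul _⟩
    · rintro ⟨⟨_, h1⟩, _, _⟩
      exact h1 (not_le.1 h)

/-- `X` is the product of its components -/
def XY (𝒜 : ℕ → Submodule k A) {J : Type} (v : J → Fin r) (d : J → ℕ)
    (u : Fin r) (s : ℕ) : X 𝒜 e v d u s ≃ₗ[k] ((j : J) → Y 𝒜 e v d u s j) where
  toFun f := fun j => ⟨(f.1 : J → A) j, mem_Y.2 ⟨f.2.1 j, by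
    have h := congrArg (fun g : Proj e v => (g : J → A) j) f.2.2
    exact h, f.1.2 j⟩⟩
  invFun g := ⟨⟨fun j => (g j : A), fun j => (mem_Y.1 (g j).2).2.2⟩,
    fun j => (mem_Y.1 (g j).2).1, by
      apply Subtype.ext
      funext j
      exact (mem_Y.1 (g j).2).2.1⟩
  left_inv f := rfl
  right_inv g := rfl
  map_add' f g := rfl
  map_smul' c f := rfl

end parts

end Vale.Agent.P176
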