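import Vale.Agent.P176.Inner

/-!
P176: graded resolutions over finite-dimensional positively graded algebras.
-/

namespace Vale.Agent.P176

variable {k A : Type} [Field k] [Ring A] [Algebra k A]

/-- `f` is homogeneous of degree `s` in the sum of the shifts `A e_{v j}(-d j)`: the component
`f j` lies in `A_{s - d j}` (and vanishes if `s < d j`). -/
def Homog (𝒜 : ℕ → Submodule k A) {J : Type} (d : J → ℕ) (s : ℕ) (f : J → A) : Prop :=
  ∀ j, (d j ≤ s → f j ∈ 𝒜 (s - d j)) ∧ (s < d j → f j = 0)

/-- An exact complex `... → P_2 → P_1 → P_0` (exact at every `P_i` with `i ≥ 1`) of sums of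
shifts `A e_v(-d)` with maps which are homogeneous of degree 0; a graded projective resolution
of the cokernel of `P_1 → P_0`. -/
structure GRes (𝒜 : ℕ → Submodule k A) {r : ℕ} (e : Fin r → A) (J : ℕ → Type)
    (v : ∀ i, J i → Fin r) (d : ∀ i, J i → ℕ) where
  δ : ∀ i, Proj e (v (i + 1)) →ₗ[A] Proj e (v i)
  homog : ∀ i s (f : Proj e (v (i + 1))),
    Homog 𝒜 (d (i + 1)) s (f : J (i + 1) → A) → Homog 𝒜 (d i) s (δ i f : J i → A)
  exact : ∀ i, LinearMap.range (δ (i + 1)) = LinearMap.ker (δ i)

end Vale.Agent.P176
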