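import Vale.Agent.P176.Exact

/-!
P176: dimensions of the homogeneous parts, Euler characteristic.
-/

namespace Vale.Agent.P176

variable {k A : Type} [Field k] [Ring A] [Algebra k A]

section ex

variable {𝒜 : ℕ → Submodule k A} {r : ℕ} {e : Fin r → A} {L : ℕ}

theorem finrank_Y {J : Type} {v : J → Fin r} {d : J → ℕ} (u : Fin r) (s : ℕ) (j : J) :
    Module.finrank k (Y 𝒜 e v d u s j) = if d j ≤ s then cdim 𝒜 e u (v j) (s - d j) else 0 := by
  by_cases h : d j ≤ s
  · have h1 : Y 𝒜 e v d u s j = corner 𝒜 e u (v j) (s - d j) := if_pos h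
    rw [h1, if_pos h]
    rfl
  · have h1 : Y 𝒜 e v d u s j = ⊥ := if_neg h
    rw [h1, if_neg h]
    exact finrank_bot k A

variable [FiniteDimensional k A]

theorem finrank_X {J : Type} [Fintype J] (v : J → Fin r) (d : J → ℕ) (u : Fin r) (s : ℕ) :
    Module.finrank k (X 𝒜 e v d u s) =
      ∑ j, if d j ≤ s then cdim 𝒜 e u (v j) (s - d j) else 0 := by
  rw [(XY 𝒜 v d u s).finrank_eq, Module.finrank_pi_fintype]
  exact Finset.sum_congr rfl fun j _ => finrank_Y u s j

instance finite_X {J : Type} [Fintype J] (v : J → Fin r) (d : J → ℕ) (u : Fin r) (s : ℕ) :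
    FiniteDimensional k (X 𝒜 e v d u s) :=
  Module.Finite.equiv (XY 𝒜 v d u s).symm

variable [GradedAlgebra 𝒜]
  {J : ℕ → Type} [∀ i, Fintype (J i)] {v : ∀ i, J i → Fin r} {d : ∀ i, J i → ℕ}

/-- the image of the homogeneous part -/
noncomputable def im (R : GRes 𝒜 e J v d) (u : Fin r) (s i : ℕ) : Submodule k (Proj e (v i)) :=
  Submodule.map ((R.δ i).restrictScalars k) (X 𝒜 e (v (i + 1)) (d (i + 1)) u s)

/-- rank of the differential on the homogeneous part -/
noncomputable def rk (R : GRes 𝒜 e J v d) (u : Fin r) (s i : ℕ) : ℕ :=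
  Module.finrank k (im R u s i)

omit [FiniteDimensional k A] [∀ i, Fintype (J i)] [GradedAlgebra 𝒜] in
theorem im_le (R : GRes 𝒜 e J v d) (u : Fin r) (s i : ℕ) :
    im R u s i ≤ X 𝒜 e (v i) (d i) u s := by
  rintro x ⟨y, hy, rfl⟩
  exact δ_mem R i s u hy

omit [FiniteDimensional k A] in
theorem ker_eq (h : Alg 𝒜 e L) (R : GRes 𝒜 e J v d) (u : Fin r) (s i : ℕ) :
    im R u s (i + 1) =
      LinearMap.ker ((R.δ i).restrictScalars k) ⊓ X 𝒜 e (v (i + 1)) (d (i + 1)) u s := by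
  apply le_antisymm
  · refine le_inf ?_ (im_le R u s (i + 1))
    rintro x ⟨y, hy, rfl⟩
    rw [LinearMap.mem_ker]
    have h1 : R.δ (i + 1) y ∈ LinearMap.ker (R.δ i) := by
      rw [← R.exact i]
      exact ⟨y, rfl⟩
    exact h1
  · rintro x ⟨hx1, hx2⟩
    have h1 : x ∈ LinearMap.range (R.δ (i + 1)) := by
      rw [R.exact i]
      exact hx1
    obtain ⟨y, hy, hyx⟩ := lift h R (i + 1) s u hx2 h1
    exact ⟨y, hy, hyx⟩

theorem rank_nullity (h : Alg 𝒜 e L) (R : GRes 𝒜 e J v d) (u : Fin r) (s i : ℕ) :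
    Module.finrank k (X 𝒜 e (v (i + 1)) (d (i + 1)) u s) = rk R u s i + rk R u s (i + 1) := by
  have h1 := LinearMap.finrank_range_add_finrank_ker (K := k)
    (V := ↥(X 𝒜 e (v (i + 1)) (d (i + 1)) u s)) (V₂ := ↥(Proj e (v i)))
    (((R.δ i).restrictScalars k).domRestrict (X 𝒜 e (v (i + 1)) (d (i + 1)) u s))
  have h2 : LinearMap.range
      (((R.δ i).restrictScalars k).domRestrict (X 𝒜 e (v (i + 1)) (d (i + 1)) u s)) =
      im R u s i := by
    ext x
    constructor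
    · rintro ⟨y, rfl⟩
      exact ⟨y.1, y.2, rfl⟩
    · rintro ⟨y, hy, rfl⟩
      exact ⟨⟨y, hy⟩, rfl⟩
  have h3 : Submodule.map (X 𝒜 e (v (i + 1)) (d (i + 1)) u s).subtype (LinearMap.ker
      (((R.δ i).restrictScalars k).domRestrict (X 𝒜 e (v (i + 1)) (d (i + 1)) u s))) =
      im R u s (i + 1) := by
    rw [ker_eq h R u s i]
    ext x
    constructor
    · rintro ⟨y, hy, rfl⟩
      exact ⟨hy, y.2⟩
    · rintro ⟨hx1, hx2⟩
      exact ⟨⟨x, hx2⟩, hx1, rfl⟩
  have h4 : Module.finrank k (LinearMap.ker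
      (((R.δ i).restrictScalars k).domRestrict (X 𝒜 e (v (i + 1)) (d (i + 1)) u s))) =
      rk R u s (i + 1) := by
    unfold rk
    rw [← h3]
    exact (LinearEquiv.finrank_eq
      (Submodule.equivMapOfInjective _ (Submodule.injective_subtype _) _))
  rw [h2, h4] at h1
  exact h1.symm

theorem euler (h : Alg 𝒜 e L) (R : GRes 𝒜 e J v d) (u : Fin r) (s n : ℕ) :
    ∑ i ∈ Finset.range (n + 1), (-1 : ℤ) ^ i *
      (Module.finrank k (X 𝒜 e (v i) (d i) u s) : ℤ) =
      (Module.finrank k (X 𝒜 e (v 0) (d 0) u s) : ℤ) - rk R u s 0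
        + (-1 : ℤ) ^ n * rk R u s n := by
  induction n with
  | zero => simp
  | succ n ih =>
    rw [Finset.sum_range_succ, ih, rank_nullity h R u s n]
    push_cast
    ring

theorem euler_zero (h : Alg 𝒜 e L) (R : GRes 𝒜 e J v d) (u : Fin r) {s n : ℕ}
    (hn : ∀ i, n < i → IsEmpty (J i))
    (hs : ∀ f : Proj e (v 0), Homog 𝒜 (d 0) s (f : J 0 → A) → f ∈ LinearMap.range (R.δ 0)) :
    ∑ i ∈ Finset.range (n + 1), (-1 : ℤ) ^ i *
      (Module.finrank k (X 𝒜 e (v i) (d i) u s) : ℤ) = 0 := by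
  rw [euler h R u s n]
  have h1 : im R u s 0 = X 𝒜 e (v 0) (d 0) u s := by
    apply le_antisymm (im_le R u s 0)
    intro x hx
    obtain ⟨y, hy, hyx⟩ := lift h R 0 s u hx (hs x (mem_X.1 hx).1)
    exact ⟨y, hy, hyx⟩
  have h2 : rk R u s n = 0 := by
    unfold rk
    have h3 : im R u s n = ⊥ := by
      rw [eq_bot_iff]
      rintro x ⟨y, _, rfl⟩
      have := hn (n + 1) (Nat.lt_succ_self n)
      have h4 : y = 0 := by
        apply Subtype.ext
        funext j
        exact isEmptyElim j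
      rw [h4, map_zero]
      exact Submodule.zero_mem _
    rw [h3, finrank_bot]
  rw [h2]
  unfold rk
  rw [h1]
  simp

end ex

end Vale.Agent.P176
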