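import Vale.Agent.P176.Core

/-!
P176: homogeneous parts of an exact graded complex.
-/

namespace Vale.Agent.P176

variable {k A : Type} [Field k] [Ring A] [Algebra k A]

section comp

variable (𝒜 : ℕ → Submodule k A) [GradedAlgebra 𝒜] {r : ℕ} (e : Fin r → A) {L : ℕ}

theorem e_mem {𝒜 : ℕ → Submodule k A} {r : ℕ} {e : Fin r → A} {L : ℕ} (h : Alg 𝒜 e L)
    (v : Fin r) : e v ∈ 𝒜 0 := by
  rw [h.zero]
  exact Submodule.subset_span ⟨v, rfl⟩

/-- projection to the homogeneous part of degree `s` -/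
def comp (h : Alg 𝒜 e L) {J : Type} (v : J → Fin r) (d : J → ℕ) (s : ℕ) :
    Proj e v →+ Proj e v where
  toFun f := ⟨fun j => if d j ≤ s then
      (DirectSum.decompose 𝒜 ((f : J → A) j) (s - d j) : A) else 0, by
    intro j
    by_cases hj : d j ≤ s
    · simp only [hj, if_true]
      rw [← DirectSum.coe_decompose_mul_of_right_mem_zero 𝒜 (e_mem h (v j)), f.2 j]
    · simp only [hj, if_false, zero_mul]⟩
  map_zero' := by
    apply Subtype.ext
    funext j
    simp
  map_add' f g := by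
    apply Subtype.ext
    funext j
    by_cases hj : d j ≤ s
    · simp [hj, DirectSum.decompose_add]
    · simp [hj]

theorem comp_apply (h : Alg 𝒜 e L) {J : Type} (v : J → Fin r) (d : J → ℕ) (s : ℕ)
    (f : Proj e v) (j : J) : (comp 𝒜 e h v d s f : J → A) j = if d j ≤ s then
      (DirectSum.decompose 𝒜 ((f : J → A) j) (s - d j) : A) else 0 := rfl

theorem comp_homog (h : Alg 𝒜 e L) {J : Type} (v : J → Fin r) (d : J → ℕ) (s : ℕ)
    (f : Proj e v) : Homog 𝒜 d s (comp 𝒜 e h v d s f : J → A) := by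
  intro j
  rw [comp_apply]
  constructor
  · intro hj
    rw [if_pos hj]
    exact SetLike.coe_mem _
  · intro hj
    rw [if_neg (not_le.2 hj)]

theorem comp_same (h : Alg 𝒜 e L) {J : Type} {v : J → Fin r} {d : J → ℕ} {s : ℕ}
    {f : Proj e v} (hf : Homog 𝒜 d s (f : J → A)) : comp 𝒜 e h v d s f = f := by
  apply Subtype.ext
  funext j
  rw [comp_apply]
  split_ifs with hj
  · exact DirectSum.decompose_of_mem_same 𝒜 ((hf j).1 hj)
  · exact ((hf j).2 (not_le.1 hj)).symm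

theorem comp_ne (h : Alg 𝒜 e L) {J : Type} {v : J → Fin r} {d : J → ℕ} {s t : ℕ}
    (hst : s ≠ t) {f : Proj e v} (hf : Homog 𝒜 d s (f : J → A)) :
    comp 𝒜 e h v d t f = 0 := by
  apply Subtype.ext
  funext j
  rw [comp_apply]
  split_ifs with hj
  · by_cases hs : d j ≤ s
    · exact DirectSum.decompose_of_mem_ne 𝒜 ((hf j).1 hs) (by omega)
    · rw [(hf j).2 (not_le.1 hs)]
      simp
  · rfl

theorem sum_decompose (h : Alg 𝒜 e L) (a : A) {N : ℕ} (hN : L < N) :
    ∑ t ∈ Finset.range N, (DirectSum.decompose 𝒜 a t : A) = a := by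
  classical
  conv_rhs => rw [← DirectSum.sum_support_decompose 𝒜 a]
  symm
  refine Finset.sum_subset ?_ ?_
  · intro t ht
    rw [Finset.mem_range]
    by_contra hcon
    have h1 : (DirectSum.decompose 𝒜 a t : A) ∈ 𝒜 t := SetLike.coe_mem _
    have h2 : (DirectSum.decompose 𝒜 a t : A) ∈ (⊥ : Submodule k A) := (h.top t (by omega)).le h1
    rw [DFinsupp.mem_support_iff] at ht
    exact ht (Subtype.ext ((Submodule.mem_bot k).1 h2))
  · intro t _ ht
    rw [DFinsupp.notMem_support_iff] at ht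
    rw [ht]
    rfl

theorem sum_comp (h : Alg 𝒜 e L) {J : Type} [Fintype J] (v : J → Fin r) (d : J → ℕ)
    (f : Proj e v) : ∃ N : ℕ, f = ∑ t ∈ Finset.range N, comp 𝒜 e h v d t f := by
  refine ⟨(∑ j, d j) + L + 1, ?_⟩
  apply Subtype.ext
  funext j
  rw [Submodule.coe_sum, Finset.sum_apply]
  simp only [comp_apply]
  have hj : d j ≤ ∑ j, d j := Finset.single_le_sum (f := d) (fun _ _ => Nat.zero_le _)
    (Finset.mem_univ j)
  obtain ⟨c, hc⟩ := Nat.exists_eq_add_of_le hj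
  have h1 : (∑ j, d j) + L + 1 = d j + (c + L + 1) := by omega
  rw [h1, Finset.sum_range_add]
  have h2 : ∑ t ∈ Finset.range (d j), (if d j ≤ t then
      (DirectSum.decompose 𝒜 ((f : J → A) j) (t - d j) : A) else 0) = 0 := by
    refine Finset.sum_eq_zero fun t ht => ?_
    rw [if_neg (not_le.2 (Finset.mem_range.1 ht))]
  rw [h2, zero_add]
  have h3 : ∀ t ∈ Finset.range (c + L + 1), (if d j ≤ d j + t then
      (DirectSum.decompose 𝒜 ((f : J → A) j) (d j + t - d j) : A) else 0) =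
      (DirectSum.decompose 𝒜 ((f : J → A) j) t : A) := by
    intro t _
    rw [if_pos (Nat.le_add_right _ _), Nat.add_sub_cancel_left]
  rw [Finset.sum_congr rfl h3]
  exact (sum_decompose 𝒜 e h _ (by omega)).symm

end comp

section ex

variable {𝒜 : ℕ → Submodule k A} [GradedAlgebra 𝒜] {r : ℕ} {e : Fin r → A} {L : ℕ}
  {J : ℕ → Type} [∀ i, Fintype (J i)] {v : ∀ i, J i → Fin r} {d : ∀ i, J i → ℕ}

theorem comp_comm (h : Alg 𝒜 e L) (R : GRes 𝒜 e J v d) (i s : ℕ) (y : Proj e (v (i + 1))) :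
    comp 𝒜 e h (v i) (d i) s (R.δ i y) = R.δ i (comp 𝒜 e h (v (i + 1)) (d (i + 1)) s y) := by
  obtain ⟨N, hN⟩ := sum_comp 𝒜 e h (v (i + 1)) (d (i + 1)) y
  have h1 : ∀ t, Homog 𝒜 (d i) t
      (R.δ i (comp 𝒜 e h (v (i + 1)) (d (i + 1)) t y) : J i → A) :=
    fun t => R.homog i t _ (comp_homog 𝒜 e h _ _ t y)
  by_cases hs : s < N
  · conv_lhs => rw [hN, map_sum, map_sum]
    rw [Finset.sum_eq_single s]
    · exact comp_same 𝒜 e h (h1 s)
    · intro t _ hts
      exact comp_ne 𝒜 e h hts (h1 t)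
    · intro hs'
      exact absurd (Finset.mem_range.2 hs) hs'
  · have h2 : comp 𝒜 e h (v (i + 1)) (d (i + 1)) s y = 0 := by
      conv_lhs => rw [hN, map_sum]
      refine Finset.sum_eq_zero fun t ht => ?_
      have := Finset.mem_range.1 ht
      exact comp_ne 𝒜 e h (by omega) (comp_homog 𝒜 e h _ _ t y)
    rw [h2, map_zero]
    conv_lhs => rw [hN, map_sum, map_sum]
    refine Finset.sum_eq_zero fun t ht => ?_
    have := Finset.mem_range.1 ht
    exact comp_ne 𝒜 e h (by omega) (h1 t)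

/-- homogeneous elements of the image lift to homogeneous elements -/
theorem lift (h : Alg 𝒜 e L) (R : GRes 𝒜 e J v d) (i s : ℕ) (u : Fin r) {x : Proj e (v i)}
    (hx : x ∈ X 𝒜 e (v i) (d i) u s) (hr : x ∈ LinearMap.range (R.δ i)) :
    ∃ y ∈ X 𝒜 e (v (i + 1)) (d (i + 1)) u s, R.δ i y = x := by
  obtain ⟨y, hy⟩ := hr
  obtain ⟨hx1, hx2⟩ := mem_X.1 hx
  refine ⟨e u • comp 𝒜 e h (v (i + 1)) (d (i + 1)) s y, mem_X.2 ⟨?_, ?_⟩, ?_⟩
  · intro j
    have h1 := comp_homog 𝒜 e h (v (i + 1)) (d (i + 1)) s y j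
    constructor
    · intro hj
      have h2 := SetLike.mul_mem_graded (e_mem h u) (h1.1 hj)
      rw [zero_add] at h2
      exact h2
    · intro hj
      change e u * (comp 𝒜 e h (v (i + 1)) (d (i + 1)) s y : J (i + 1) → A) j = 0
      rw [h1.2 hj, mul_zero]
  · rw [smul_smul]
    have : e u * e u = e u := h.comp.idem u
    rw [this]
  · rw [map_smul, ← comp_comm h R i s y, hy, comp_same 𝒜 e h hx1, hx2]

omit [GradedAlgebra 𝒜] [∀ i, Fintype (J i)] in
theorem δ_mem (R : GRes 𝒜 e J v d) (i s : ℕ) (u : Fin r) {y : Proj e (v (i + 1))}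
    (hy : y ∈ X 𝒜 e (v (i + 1)) (d (i + 1)) u s) : R.δ i y ∈ X 𝒜 e (v i) (d i) u s := by
  obtain ⟨h1, h2⟩ := mem_X.1 hy
  refine mem_X.2 ⟨R.homog i s y h1, ?_⟩
  rw [← map_smul, h2]

end ex

end Vale.Agent.P176
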