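import Vale.Agent.P176.PD

/-!
P176: existence of minimal resolutions.
-/

namespace Vale.Agent.P176

variable {A : Type} [Ring A] {r : ℕ} {e : Fin r → A}

/-- a minimal cover of `M` by a finite sum of modules `A e_v` -/
structure Cover (e : Fin r → A) (M : Type) [AddCommGroup M] [Module A M] where
  J : Type
  fin : Fintype J
  v : J → Fin r
  ε : Proj e v →ₗ[A] M
  surj : Function.Surjective ε
  minimal : ∀ x ∈ LinearMap.ker ε, ∀ j, (x : J → A) j ∈ Ring.jacobson A

/-- generating families of `M` adapted to the idempotents -/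
def GenFam (e : Fin r → A) (M : Type) [AddCommGroup M] [Module A M] (n : ℕ) : Prop :=
  ∃ (v : Fin n → Fin r) (x : Fin n → M), (∀ j, e (v j) • x j = x j) ∧
    Submodule.span A (Set.range x) = ⊤

theorem genFam_exists (he : CompleteOrthogonalIdempotents e) (M : Type) [AddCommGroup M]
    [Module A M] [Module.Finite A M] : ∃ n, GenFam e M n := by
  obtain ⟨n, s, hs⟩ := Module.Finite.exists_fin (R := A) (M := M)
  refine ⟨n * r, fun j => (finProdFinEquiv.symm j).2,
    fun j => e (finProdFinEquiv.symm j).2 • s (finProdFinEquiv.symm j).1, ?_, ?_⟩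
  · intro j
    have h1 : e (finProdFinEquiv.symm j).2 * e (finProdFinEquiv.symm j).2 =
      e (finProdFinEquiv.symm j).2 := he.idem _
    rw [smul_smul, h1]
  · rw [eq_top_iff, ← hs, Submodule.span_le]
    rintro _ ⟨i, rfl⟩
    have h1 : s i = ∑ u, e u • s i := by
      rw [← Finset.sum_smul, he.complete, one_smul]
    rw [h1]
    refine Submodule.sum_mem _ fun u _ => Submodule.subset_span ?_
    refine ⟨finProdFinEquiv (i, u), ?_⟩
    simp

/-- the linear map given by a family of elements -/
noncomputable def famMap {M : Type} [AddCommGroup M] [Module A M] {J : Type} [Fintype J]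
    (v : J → Fin r) (x : J → M) : Proj e v →ₗ[A] M :=
  (Fintype.linearCombination A x).comp (Proj e v).subtype

theorem famMap_apply {M : Type} [AddCommGroup M] [Module A M] {J : Type} [Fintype J]
    (v : J → Fin r) (x : J → M) (f : Proj e v) :
    famMap v x f = ∑ j, (f : J → A) j • x j := rfl

theorem famMap_surj (he : CompleteOrthogonalIdempotents e) {M : Type} [AddCommGroup M]
    [Module A M] {J : Type} [Fintype J] [DecidableEq J] (v : J → Fin r) (x : J → M)
    (hx : ∀ j, e (v j) • x j = x j) (hs : Submodule.span A (Set.range x) = ⊤) :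
    Function.Surjective (famMap (e := e) v x) := by
  rw [← LinearMap.range_eq_top, eq_top_iff, ← hs, Submodule.span_le]
  rintro _ ⟨j, rfl⟩
  refine ⟨gen he v j, ?_⟩
  rw [famMap_apply, Finset.sum_eq_single j]
  · change (Pi.single j (e (v j)) : J → A) j • x j = x j
    rw [Pi.single_eq_same, hx]
  · intro j' _ hj'
    change (Pi.single j (e (v j)) : J → A) j' • x j' = 0
    rw [Pi.single_eq_of_ne hj', zero_smul]
  · intro h
    exact absurd (Finset.mem_univ _) h

theorem exists_cover (h : Basic A e) (M : Type) [AddCommGroup M] [Module A M]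
    [Module.Finite A M] : Nonempty (Cover e M) := by
  classical
  obtain ⟨n, hgen0, hmin⟩ : ∃ n, GenFam e M n ∧ ∀ m, m < n → ¬ GenFam e M m := by
    have hex := genFam_exists (e := e) h.comp M
    exact ⟨Nat.find hex, Nat.find_spec hex, fun m hm => Nat.find_min hex hm⟩
  obtain ⟨v, x, hx, hs⟩ := hgen0
  refine ⟨⟨Fin n, inferInstance, v, famMap v x, famMap_surj h.comp v x hx hs, ?_⟩⟩
  intro z hz j0
  by_contra hj0
  have hzv : (z : Fin n → A) j0 * e (v j0) = (z : Fin n → A) j0 := z.2 j0
  have h1 : e (v j0) * (z : Fin n → A) j0 ∉ Ring.jacobson A := by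
    intro hcon
    apply hj0
    have h2 : (z : Fin n → A) j0 = ∑ u, e u * (z : Fin n → A) j0 := by
      rw [← Finset.sum_mul, h.comp.complete, one_mul]
    rw [h2]
    refine Submodule.sum_mem _ fun u _ => ?_
    by_cases hu : u = v j0
    · rw [hu]
      exact hcon
    · have h3 := h.off u (v j0) hu ((z : Fin n → A) j0)
      rw [mul_assoc, hzv] at h3
      exact h3
  have h4 : e (v j0) * (z : Fin n → A) j0 * e (v j0) = e (v j0) * (z : Fin n → A) j0 := by
    rw [mul_assoc, hzv]
  obtain ⟨b, hb⟩ := h.loc (v j0) ((z : Fin n → A) j0) (by rw [h4]; exact h1)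
  rw [h4] at hb
  have hw : famMap v x ((b * e (v j0)) • z) = 0 := by
    rw [map_smul, LinearMap.mem_ker.1 hz, smul_zero]
  rw [famMap_apply, ← Finset.add_sum_erase Finset.univ _ (Finset.mem_univ j0)] at hw
  have h5 : (((b * e (v j0)) • z : Proj e v) : Fin n → A) j0 = e (v j0) := by
    change (b * e (v j0)) * (z : Fin n → A) j0 = e (v j0)
    rw [mul_assoc, hb]
  rw [h5, hx] at hw
  have hj0n : j0.val < n := j0.2
  obtain ⟨m, hm⟩ : ∃ m, n = m + 1 := ⟨n - 1, by omega⟩
  have hgen : GenFam e M m := by
    subst hm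
    refine ⟨fun j => v (j0.succAbove j), fun j => x (j0.succAbove j), fun j => hx _, ?_⟩
    rw [eq_top_iff, ← hs, Submodule.span_le]
    rintro _ ⟨j, rfl⟩
    have hsub : ∀ j, j ≠ j0 → x j ∈ Submodule.span A
        (Set.range (fun j => x (j0.succAbove j))) := by
      intro j hj
      obtain ⟨j', rfl⟩ := Fin.exists_succAbove_eq hj
      exact Submodule.subset_span ⟨j', rfl⟩
    by_cases hj : j = j0
    · rw [hj, eq_neg_of_add_eq_zero_left hw]
      refine Submodule.neg_mem _ (Submodule.sum_mem _ fun j' hj' => ?_)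
      exact Submodule.smul_mem _ _ (hsub j' (Finset.ne_of_mem_erase hj'))
    · exact hsub j hj
  exact hmin m (by omega) hgen

/-- a state of the construction -/
structure St (e : Fin r → A) where
  J : Type
  fin : Fintype J
  v : J → Fin r
  K : Submodule A (Proj e v)

variable {k : Type} [Field k] [Algebra k A] [FiniteDimensional k A]

theorem finite_sub (k : Type) [Field k] [Algebra k A] [FiniteDimensional k A] {J : Type}
    [Fintype J] (v : J → Fin r) (K : Submodule A (Proj e v)) : Module.Finite A K := by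
  have h1 : IsNoetherian k A := inferInstance
  have h2 : IsNoetherian A A := isNoetherian_of_tower k h1
  have h3 : IsNoetherian A (J → A) := inferInstance
  have h4 : IsNoetherian A (Proj e v) := inferInstance
  exact Module.IsNoetherian.finite A K

/-- a chosen cover of the submodule of a state -/
noncomputable def St.cov (k : Type) [Field k] [Algebra k A] [FiniteDimensional k A]
    (h : Basic A e) (s : St e) : Cover e s.K :=
  have := s.fin
  have := finite_sub k s.v s.K
  (exists_cover h s.K).some

/-- the next state -/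
noncomputable def St.next (k : Type) [Field k] [Algebra k A] [FiniteDimensional k A]
    (h : Basic A e) (s : St e) : St e :=
  ⟨(s.cov k h).J, (s.cov k h).fin, (s.cov k h).v, LinearMap.ker (s.cov k h).ε⟩

/-- the map between the modules of consecutive states -/
noncomputable def St.map (k : Type) [Field k] [Algebra k A] [FiniteDimensional k A]
    (h : Basic A e) (s : St e) : Proj e (s.next k h).v →ₗ[A] Proj e s.v :=
  s.K.subtype.comp (s.cov k h).ε

theorem St.range_map (h : Basic A e) (s : St e) : LinearMap.range (s.map k h) = s.K := by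
  ext x
  constructor
  · rintro ⟨y, rfl⟩
    exact ((s.cov k h).ε y).2
  · intro hx
    obtain ⟨y, hy⟩ := (s.cov k h).surj ⟨x, hx⟩
    exact ⟨y, congrArg Subtype.val hy⟩

theorem ker_aux {P Q : Type} [AddCommGroup P] [Module A P] [AddCommGroup Q] [Module A Q]
    (K : Submodule A Q) (f : P →ₗ[A] K) : LinearMap.ker (K.subtype.comp f) = LinearMap.ker f :=
  LinearMap.ker_comp_of_ker_eq_bot f (Submodule.ker_subtype K)

theorem St.ker_map (h : Basic A e) (s : St e) :
    LinearMap.ker (s.map k h) = (s.next k h).K :=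
  ker_aux s.K (s.cov k h).ε

/-- the sequence of states -/
noncomputable def St.seq (k : Type) [Field k] [Algebra k A] [FiniteDimensional k A]
    (h : Basic A e) (s : St e) : ℕ → St e
  | 0 => s
  | i + 1 => (St.seq k h s i).next k h

/-- the maps of the sequence -/
noncomputable def St.smap (k : Type) [Field k] [Algebra k A] [FiniteDimensional k A]
    (h : Basic A e) (s : St e) (i : ℕ) :
    Proj e (St.seq k h s (i + 1)).v →ₗ[A] Proj e (St.seq k h s i).v :=
  St.map k h (St.seq k h s i)

theorem exists_minRes (k : Type) [Field k] [Algebra k A] [FiniteDimensional k A]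
    (h : Basic A e) (M : Type) [AddCommGroup M] [Module A M] [Module.Finite A M] :
    Nonempty (MRes e M) := by
  obtain ⟨c⟩ := exists_cover h M
  have hrange : ∀ i, LinearMap.range (St.smap k h ⟨c.J, c.fin, c.v, LinearMap.ker c.ε⟩ i) =
      (St.seq k h ⟨c.J, c.fin, c.v, LinearMap.ker c.ε⟩ i).K :=
    fun i => St.range_map h _
  have hker : ∀ i, LinearMap.ker (St.smap k h ⟨c.J, c.fin, c.v, LinearMap.ker c.ε⟩ i) =
      (St.seq k h ⟨c.J, c.fin, c.v, LinearMap.ker c.ε⟩ (i + 1)).K :=
    fun i => St.ker_map h _
  have hmin : ∀ i, ∀ x ∈ (St.seq k h ⟨c.J, c.fin, c.v, LinearMap.ker c.ε⟩ i).K, ∀ j,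
      (x : (St.seq k h ⟨c.J, c.fin, c.v, LinearMap.ker c.ε⟩ i).J → A) j ∈ Ring.jacobson A := by
    intro i
    cases i with
    | zero => exact c.minimal
    | succ i => exact ((St.seq k h _ i).cov k h).minimal
  exact ⟨{
    J := fun i => (St.seq k h ⟨c.J, c.fin, c.v, LinearMap.ker c.ε⟩ i).J
    fin := fun i => (St.seq k h ⟨c.J, c.fin, c.v, LinearMap.ker c.ε⟩ i).fin
    v := fun i => (St.seq k h ⟨c.J, c.fin, c.v, LinearMap.ker c.ε⟩ i).v
    ε := c.ε
    δ := fun i => St.smap k h ⟨c.J, c.fin, c.v, LinearMap.ker c.ε⟩ i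
    surj := c.surj
    exact_zero := hrange 0
    exact := fun i => by rw [hrange, hker]
    minimal := fun i f j => hmin i _ (by rw [← hrange i]; exact ⟨f, rfl⟩) j }⟩

end Vale.Agent.P176
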