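import Vale.Agent.P176.Stat

/-!
P176: the same definitions with the submodules `Proj`, for the proofs.
-/

namespace Vale.Agent.P176

/-- `f` lies in `rad(A)^s P`, `P` = the sum of the `A e_{v j}` -/
def InRad (k : Type) [Field k] {A : Type} [Ring A] [Algebra k A] {r : ℕ} {e : Fin r → A}
    {J : Type} {v : J → Fin r} (s : ℕ) (f : Proj e v) : Prop :=
  ∀ j, (f : J → A) j ∈ rpow k A s

/-- A minimal projective resolution `... → P_1 → P_0 → M → 0` of the left `A`-module `M`, the
modules `P_i` being finite direct sums of modules `A e_v`. Minimal: the image of `P_(i+1)` in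
`P_i` is contained in `rad(A) P_i`. -/
structure MRes {A : Type} [Ring A] {r : ℕ} (e : Fin r → A) (M : Type) [AddCommGroup M]
    [Module A M] where
  J : ℕ → Type
  fin : ∀ i, Fintype (J i)
  v : ∀ i, J i → Fin r
  ε : Proj e (v 0) →ₗ[A] M
  δ : ∀ i, Proj e (v (i + 1)) →ₗ[A] Proj e (v i)
  surj : Function.Surjective ε
  exact_zero : LinearMap.range (δ 0) = LinearMap.ker ε
  exact : ∀ i, LinearMap.range (δ (i + 1)) = LinearMap.ker (δ i)
  minimal : ∀ i (f : Proj e (v (i + 1))) (j : J i), (δ i f : J i → A) j ∈ Ring.jacobson A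

section

variable (k : Type) [Field k] {A : Type} [Ring A] [Algebra k A] {r : ℕ} {e : Fin r → A}
  {M : Type} [AddCommGroup M] [Module A M]

/-- The associated graded complex `lin P` of the minimal resolution `P` (for the filtrations
`rad(A)^s P_i`, the maps sending `rad(A)^s P_(i+1)` to `rad(A)^(s+1) P_i`) is exact at the place
`i + 1` in the lowest internal degree. -/
def MRes.LinExactZero (R : MRes e M) (i : ℕ) : Prop :=
  ∀ f : Proj e (R.v (i + 1)), InRad k 2 (R.δ i f) → InRad k 1 f

/-- The same for the other internal degrees. -/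
def MRes.LinExactSucc (R : MRes e M) (i : ℕ) : Prop :=
  ∀ (s : ℕ) (f : Proj e (R.v (i + 1))), InRad k (s + 1) f → InRad k (s + 3) (R.δ i f) →
    ∃ g : Proj e (R.v (i + 2)), InRad k s g ∧ InRad k (s + 2) (f - R.δ (i + 1) g)

/-- the linearity defect is at most `l`: `H_(i+1)(lin P) = 0` for all `i ≥ l` -/
def MRes.LinDefLE (R : MRes e M) (l : ℕ) : Prop :=
  ∀ i, l ≤ i → R.LinExactZero k i ∧ R.LinExactSucc k i

end

end Vale.Agent.P176
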