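import Vale.Agent.P176.Poly

/-!
P176: filtered algebras, the linear part of a minimal complex.
-/

namespace Vale.Agent.P176

open Polynomial Matrix

variable {k A : Type} [Field k] [Ring A] [Algebra k A]

/-- abstract form of the radical filtration -/
structure Filt (F : ℕ → Submodule k A) {r : ℕ} (e : Fin r → A) (L : ℕ) : Prop where
  anti : ∀ s, F (s + 1) ≤ F s
  bot : ∀ s, L < s → F s = ⊥
  idem : ∀ u, e u * e u = e u
  left : ∀ s u a, a ∈ F s → e u * a ∈ F s
  off : ∀ u v, u ≠ v → cdim F e u v 0 = cdim F e u v 1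
  on : ∀ u, cdim F e u u 1 < cdim F e u u 0

/-- all components of `f` lie in `F s` -/
def Fil (F : ℕ → Submodule k A) {J : Type} (s : ℕ) (f : J → A) : Prop := ∀ j, f j ∈ F s

/-- a complex of projective modules whose maps raise the filtration -/
structure FCx (F : ℕ → Submodule k A) {r : ℕ} (e : Fin r → A) (J : ℕ → Type)
    (v : ∀ i, J i → Fin r) where
  δ : ∀ i, Proj e (v (i + 1)) →ₗ[A] Proj e (v i)
  cx : ∀ i f, δ i (δ (i + 1) f) = 0
  up : ∀ i s (f : Proj e (v (i + 1))), Fil F s (f : J (i + 1) → A) →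
    Fil F (s + 1) (δ i f : J i → A)

/-- the associated graded complex is exact at the place `i + 1` -/
def FCx.LinExact {F : ℕ → Submodule k A} {r : ℕ} {e : Fin r → A} {J : ℕ → Type}
    {v : ∀ i, J i → Fin r} (R : FCx F e J v) (i : ℕ) : Prop :=
  ∀ s (f : Proj e (v (i + 1))), Fil F s (f : J (i + 1) → A) →
    Fil F (s + 2) (R.δ i f : J i → A) →
    ∃ g : Proj e (v (i + 2)), (∀ t, s = t + 1 → Fil F t (g : J (i + 2) → A)) ∧
      (s = 0 → g = 0) ∧ Fil F (s + 1) ((f - R.δ (i + 1) g : Proj e (v (i + 1))) : J (i + 1) → A)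

section

variable {F : ℕ → Submodule k A} {r : ℕ} {e : Fin r → A} {L : ℕ}

/-- `e_u (F_s P)` -/
abbrev XF (F : ℕ → Submodule k A) (e : Fin r → A) {J : Type} (v : J → Fin r) (u : Fin r)
    (s : ℕ) : Submodule k (Proj e v) := X F e v (fun _ => 0) u s

theorem mem_XF {J : Type} {v : J → Fin r} {u : Fin r} {s : ℕ} {f : Proj e v} :
    f ∈ XF F e v u s ↔ Fil F s (f : J → A) ∧ e u • f = f := by
  rw [mem_X]
  refine and_congr_left fun _ => ?_
  constructor
  · intro h j
    exact (h j).1 (Nat.zero_le _)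
  · intro h j
    exact ⟨fun _ => h j, fun h' => absurd h' (Nat.not_lt_zero _)⟩

theorem XF_anti (hF : Filt F e L) {J : Type} (v : J → Fin r) (u : Fin r) (s : ℕ) :
    XF F e v u (s + 1) ≤ XF F e v u s := by
  intro f hf
  rw [mem_XF] at hf ⊢
  exact ⟨fun j => hF.anti s (hf.1 j), hf.2⟩

theorem XF_bot (hF : Filt F e L) {J : Type} (v : J → Fin r) (u : Fin r) {s : ℕ} (hs : L < s) :
    XF F e v u s = ⊥ := by
  rw [eq_bot_iff]
  intro f hf
  rw [mem_XF] at hf
  rw [Submodule.mem_bot]
  apply Subtype.ext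
  funext j
  exact (hF.bot s hs).le (hf.1 j)

variable [FiniteDimensional k A]

theorem finrank_XF {J : Type} [Fintype J] (v : J → Fin r) (u : Fin r) (s : ℕ) :
    Module.finrank k (XF F e v u s) = ∑ j, cdim F e u (v j) s := by
  rw [finrank_X]
  exact Finset.sum_congr rfl fun j _ => by rw [if_pos (Nat.zero_le _), Nat.sub_zero]

variable {J : ℕ → Type} [∀ i, Fintype (J i)] {v : ∀ i, J i → Fin r}

/-- dimension of the graded piece -/
noncomputable def yd (F : ℕ → Submodule k A) (e : Fin r → A) {J : Type} (v : J → Fin r)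
    (u : Fin r) (s : ℕ) : ℤ :=
  (Module.finrank k (XF F e v u s) : ℤ) - Module.finrank k (XF F e v u (s + 1))

/-- the previous part of the filtration -/
def pX (F : ℕ → Submodule k A) (e : Fin r → A) {J : Type} (v : J → Fin r) (u : Fin r) :
    ℕ → Submodule k (Proj e v)
  | 0 => ⊥
  | t + 1 => XF F e v u t

/-- boundaries -/
def Bd (R : FCx F e J v) (u : Fin r) (i s : ℕ) : Submodule k (Proj e (v i)) :=
  Submodule.map ((R.δ i).restrictScalars k) (pX F e (v (i + 1)) u s) ⊔ XF F e (v i) u (s + 1)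

/-- cycles -/
def Zd (R : FCx F e J v) (u : Fin r) (i s : ℕ) : Submodule k (Proj e (v (i + 1))) :=
  XF F e (v (i + 1)) u s ⊓
    Submodule.comap ((R.δ i).restrictScalars k) (XF F e (v i) u (s + 2))

/-- dimension of the boundaries of the associated graded complex -/
noncomputable def bd (R : FCx F e J v) (u : Fin r) (i s : ℕ) : ℤ :=
  (Module.finrank k (Bd R u i s) : ℤ) - Module.finrank k (XF F e (v i) u (s + 1))

omit [FiniteDimensional k A] [∀ i, Fintype (J i)] in
theorem δ_XF (R : FCx F e J v) (u : Fin r) (i s : ℕ) :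
    Submodule.map ((R.δ i).restrictScalars k) (XF F e (v (i + 1)) u s) ≤
      XF F e (v i) u (s + 1) := by
  rintro x ⟨y, hy, rfl⟩
  have hy' := mem_XF.1 hy
  refine mem_XF.2 ⟨R.up i s y hy'.1, ?_⟩
  change e u • R.δ i y = R.δ i y
  rw [← map_smul, hy'.2]

omit [FiniteDimensional k A] [∀ i, Fintype (J i)] in
theorem Bd_le (hF : Filt F e L) (R : FCx F e J v) (u : Fin r) (i s : ℕ) :
    Bd R u i s ≤ XF F e (v i) u s := by
  refine sup_le ?_ (XF_anti hF (v i) u s)
  cases s with
  | zero =>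
    have : pX F e (v (i + 1)) u 0 = ⊥ := rfl
    rw [this, Submodule.map_bot]
    exact bot_le
  | succ t => exact δ_XF R u i t

omit [FiniteDimensional k A] [∀ i, Fintype (J i)] in
theorem Zd_eq (hF : Filt F e L) (R : FCx F e J v) (u : Fin r) {i : ℕ} (hi : R.LinExact i)
    (s : ℕ) : Zd R u i s = Bd R u (i + 1) s := by
  apply le_antisymm
  · rintro f ⟨hf1, hf2⟩
    have h1 := mem_XF.1 hf1
    have h2 := mem_XF.1 (Submodule.mem_comap.1 hf2)
    obtain ⟨g, hg1, hg2, hg3⟩ := hi s f h1.1 h2.1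
    have hsp : f = R.δ (i + 1) (e u • g) + (e u • (f - R.δ (i + 1) g)) := by
      rw [map_smul, ← smul_add, add_sub_cancel, h1.2]
    have hee : ∀ {J' : Type} {v' : J' → Fin r} (z : Proj e v'), e u • (e u • z) = e u • z := by
      intro J' v' z
      rw [smul_smul, hF.idem]
    rw [hsp]
    refine Submodule.add_mem_sup ?_ ?_
    · refine ⟨e u • g, ?_, rfl⟩
      cases s with
      | zero =>
        have : g = 0 := hg2 rfl
        rw [this, smul_zero]
        exact Submodule.zero_mem _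
      | succ t =>
        have h3 := hg1 t rfl
        exact mem_XF.2 ⟨fun j => hF.left t u _ (h3 j), hee g⟩
    · exact mem_XF.2 ⟨fun j => hF.left (s + 1) u _ (hg3 j), hee _⟩
  · refine sup_le ?_ ?_
    · rintro x ⟨y, hy, rfl⟩
      refine ⟨?_, ?_⟩
      · cases s with
        | zero =>
          have h1 : y = 0 := hy
          rw [h1, map_zero]
          exact Submodule.zero_mem _
        | succ t => exact δ_XF R u (i + 1) t ⟨y, hy, rfl⟩
      · change R.δ i (R.δ (i + 1) y) ∈ XF F e (v i) u (s + 2)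
        rw [R.cx]
        exact Submodule.zero_mem _
    · intro f hf
      refine ⟨XF_anti hF _ u s hf, ?_⟩
      exact δ_XF R u i (s + 1) ⟨f, hf, rfl⟩

/-- rank-nullity on a subspace -/
theorem rn {V W : Type} [AddCommGroup V] [Module k V] [AddCommGroup W] [Module k W]
    (f : V →ₗ[k] W) (S : Submodule k V) [FiniteDimensional k S] :
    Module.finrank k (Submodule.map f S) + Module.finrank k (LinearMap.ker f ⊓ S : Submodule k V)
      = Module.finrank k S := by
  have h1 := LinearMap.finrank_range_add_finrank_ker (K := k) (V := ↥S) (V₂ := W)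
    (f.domRestrict S)
  have h2 : LinearMap.range (f.domRestrict S) = Submodule.map f S := by
    ext x
    constructor
    · rintro ⟨y, rfl⟩
      exact ⟨y.1, y.2, rfl⟩
    · rintro ⟨y, hy, rfl⟩
      exact ⟨⟨y, hy⟩, rfl⟩
  have h3 : Submodule.map S.subtype (LinearMap.ker (f.domRestrict S)) = LinearMap.ker f ⊓ S := by
    ext x
    constructor
    · rintro ⟨y, hy, rfl⟩
      exact ⟨hy, y.2⟩
    · rintro ⟨hx1, hx2⟩
      exact ⟨⟨x, hx2⟩, hx1, rfl⟩
  have h4 : Module.finrank k (LinearMap.ker (f.domRestrict S)) =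
      Module.finrank k (LinearMap.ker f ⊓ S : Submodule k V) := by
    rw [← h3]
    exact (LinearEquiv.finrank_eq
      (Submodule.equivMapOfInjective _ (Submodule.injective_subtype _) _))
  rw [h2, h4] at h1
  exact h1

instance finite_XF {J : Type} [Fintype J] (v : J → Fin r) (u : Fin r) (s : ℕ) :
    FiniteDimensional k (XF F e v u s) := finite_X v _ u s

instance finite_Bd (R : FCx F e J v) (u : Fin r) (i s : ℕ) :
    FiniteDimensional k (Bd R u i s) := by
  unfold Bd
  have : FiniteDimensional k (pX F e (v (i + 1)) u s) := by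
    cases s with
    | zero => exact inferInstanceAs (FiniteDimensional k (⊥ : Submodule k (Proj e (v (i + 1)))))
    | succ t => exact finite_X _ _ u t
  infer_instance

theorem rank_Z (R : FCx F e J v) (u : Fin r) (i s : ℕ) :
    (Module.finrank k (XF F e (v (i + 1)) u s) : ℤ) - Module.finrank k (Zd R u i s) =
      bd R u i (s + 1) := by
  set f := (R.δ i).restrictScalars k with hf
  set S := XF F e (v (i + 1)) u s with hS
  set V := XF F e (v i) u (s + 2) with hV
  have hZ : Zd R u i s = S ⊓ Submodule.comap f V := rfl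
  have hfd : FiniteDimensional k (Zd R u i s) := by
    rw [hZ]
    exact Submodule.finiteDimensional_of_le inf_le_left
  have h1 := rn f S
  have h2 := rn f (Zd R u i s)
  have h3 : LinearMap.ker f ⊓ Zd R u i s = LinearMap.ker f ⊓ S := by
    apply le_antisymm
    · exact inf_le_inf_left _ (hZ ▸ inf_le_left)
    · rintro x ⟨hx1, hx2⟩
      refine ⟨hx1, ?_⟩
      rw [hZ]
      refine ⟨hx2, ?_⟩
      change f x ∈ V
      have hx0 : f x = 0 := hx1
      rw [hx0]
      exact Submodule.zero_mem _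
  have h4 : Submodule.map f (Zd R u i s) = Submodule.map f S ⊓ V := by
    rw [hZ]
    ext x
    constructor
    · rintro ⟨y, ⟨hy1, hy2⟩, rfl⟩
      exact ⟨⟨y, hy1, rfl⟩, hy2⟩
    · rintro ⟨⟨y, hy1, rfl⟩, hy2⟩
      exact ⟨y, ⟨hy1, hy2⟩, rfl⟩
  have h5 := Submodule.finrank_sup_add_finrank_inf_eq (Submodule.map f S) V
  have h6 : Bd R u i (s + 1) = Submodule.map f S ⊔ V := rfl
  rw [h3, h4] at h2
  unfold bd
  rw [h6]
  have h7 : XF F e (v i) u (s + 1 + 1) = V := rfl
  rw [h7]
  omega

theorem yd_eq (hF : Filt F e L) (R : FCx F e J v) (u : Fin r) {i : ℕ} (hi : R.LinExact i)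
    (s : ℕ) : yd F e (v (i + 1)) u s = bd R u i (s + 1) + bd R u (i + 1) s := by
  have h1 := rank_Z R u i s
  rw [Zd_eq hF R u hi s] at h1
  unfold yd
  have h2 : bd R u (i + 1) s = (Module.finrank k (Bd R u (i + 1) s) : ℤ) -
      Module.finrank k (XF F e (v (i + 1)) u (s + 1)) := rfl
  rw [h2, ← h1]
  ring

theorem bd_zero (R : FCx F e J v) (u : Fin r) (i : ℕ) : bd R u i 0 = 0 := by
  unfold bd
  have h1 : Bd R u i 0 = XF F e (v i) u (0 + 1) := by
    unfold Bd
    have : pX F e (v (i + 1)) u 0 = ⊥ := rfl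
    rw [this, Submodule.map_bot, bot_sup_eq]
  rw [h1, sub_self]

theorem bd_top (hF : Filt F e L) (R : FCx F e J v) (u : Fin r) (i : ℕ) {s : ℕ} (hs : L < s) :
    bd R u i s = 0 := by
  unfold bd
  have h1 : Bd R u i s = ⊥ := by
    rw [eq_bot_iff, ← XF_bot hF (v i) u hs]
    exact Bd_le hF R u i s
  rw [h1, XF_bot hF (v i) u (by omega : L < s + 1)]
  simp

theorem yd_top (hF : Filt F e L) {J : Type} (v : J → Fin r) (u : Fin r) {s : ℕ} (hs : L < s) :
    yd F e v u s = 0 := by
  unfold yd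
  rw [XF_bot hF v u hs, XF_bot hF v u (by omega : L < s + 1)]
  simp

theorem diag_sum (hF : Filt F e L) (R : FCx F e J v) (u : Fin r) {l : ℕ}
    (hl : ∀ i, l ≤ i → R.LinExact i) (m : ℕ) : ∀ p ≤ m,
    ∑ i ∈ Finset.range (p + 1), (-1 : ℤ) ^ i * yd F e (v (l + i)) u (m - i) =
      yd F e (v l) u m - bd R u l m + (-1 : ℤ) ^ p * bd R u (l + p) (m - p) := by
  intro p
  induction p with
  | zero =>
    intro _
    simp
  | succ p ih =>
    intro hp
    rw [Finset.sum_range_succ, ih (by omega)]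
    have h1 := yd_eq hF R u (hl (l + p) (by omega)) (m - (p + 1))
    have h2 : m - (p + 1) + 1 = m - p := by omega
    rw [h2] at h1
    have h3 : l + (p + 1) = l + p + 1 := by omega
    rw [h3, h1, pow_succ]
    ring

theorem diag_zero (hF : Filt F e L) (R : FCx F e J v) (u : Fin r) {l : ℕ}
    (hl : ∀ i, l ≤ i → R.LinExact i) {m : ℕ} (hm : L < m) :
    ∑ i ∈ Finset.range (m + 1), (-1 : ℤ) ^ i * yd F e (v (l + i)) u (m - i) = 0 := by
  rw [diag_sum hF R u hl m m le_rfl, yd_top hF _ u hm, bd_top hF R u l hm, Nat.sub_self,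
    bd_zero]
  ring

end

end Vale.Agent.P176
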