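import Vale.Agent.P176.Exist

/-!
P176: the linearity defect and the projective dimension.
-/

namespace Vale.Agent.P176

open CategoryTheory

variable {k : Type} [Field k] {A : Type} [Ring A] [Algebra k A] {r : ℕ} {e : Fin r → A}
  {M : Type} [AddCommGroup M] [Module A M]

theorem linExact_toFCx (h : Basic A e) (R : MRes e M) {i : ℕ}
    (hi : R.LinExactZero k i ∧ R.LinExactSucc k i) :
    (R.toFCx k h).LinExact i := by
  intro s f hf hδ
  cases s with
  | zero =>
    refine ⟨0, fun t ht => absurd ht (Nat.succ_ne_zero t).symm, fun _ => rfl, fun j => ?_⟩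
    have h1 := hi.1 f hδ j
    rw [map_zero, sub_zero]
    exact h1
  | succ s =>
    obtain ⟨g, hg1, hg2⟩ := hi.2 s f hf hδ
    refine ⟨g, fun t ht => ?_, fun h0 => absurd h0 (Nat.succ_ne_zero s), hg2⟩
    have : t = s := by omega
    rw [this]
    exact hg1

theorem ker_zero (h : Basic A e) {L : ℕ} (hL : rpow k A (L + 1) = ⊥) {J : Type} [Fintype J]
    {v : J → Fin r} {N : Type} [AddCommGroup N] [Module A N] (hN : Module.Projective A N)
    (f : Proj e v →ₗ[A] N) (hf : Function.Surjective f)
    (hm : ∀ x ∈ LinearMap.ker f, ∀ j, (x : J → A) j ∈ Ring.jacobson A) :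
    LinearMap.ker f = ⊥ := by
  obtain ⟨s, hs⟩ := Module.projective_lifting_property f (LinearMap.id : N →ₗ[A] N) hf
  have hs' : ∀ x : N, f (s x) = x := fun x => congrArg (fun g : N →ₗ[A] N => g x) hs
  refine split_zero h hL (LinearMap.ker f) (LinearMap.id - s.comp f) ?_ ?_ hm
  · intro x
    rw [LinearMap.mem_ker]
    change f (x - s (f x)) = 0
    rw [map_sub, hs', sub_self]
  · intro x hx
    change x - s (f x) = x
    rw [LinearMap.mem_ker.1 hx, map_zero, sub_zero]

/-- the minimal resolution has length at most the projective dimension -/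
theorem empty_of_pd (h : Basic A e) {L : ℕ} (hL : rpow k A (L + 1) = ⊥) (R : MRes e M)
    {l : ℕ} (hl : HasProjectiveDimensionLT (ModuleCat.of A M) (l + 1)) :
    IsEmpty (R.J (l + 1)) := by
  cases l with
  | zero =>
    have h1 : HasProjectiveDimensionLT (ModuleCat.of A M) 1 := hl
    have h2 : Projective (ModuleCat.of A M) := inferInstance
    have hp : Module.Projective A M := (IsProjective.iff_projective _).2 h2
    have := R.fin 0
    refine empty_of_range h hL R ?_
    rw [R.exact_zero]
    refine ker_zero h hL hp R.ε R.surj ?_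
    intro x hx j
    rw [← R.exact_zero] at hx
    obtain ⟨y, rfl⟩ := hx
    exact R.minimal 0 y j
  | succ m =>
    have h1 : m + 1 + 1 = 0 + m + 2 := by ring
    rw [h1, pd_iff h.comp R m 0, zero_add] at hl
    have h2 : Projective (ModuleCat.of A (LinearMap.range (R.δ m))) := inferInstance
    have hp : Module.Projective A (LinearMap.range (R.δ m)) :=
      (IsProjective.iff_projective _).2 h2
    have := R.fin (m + 1)
    refine empty_of_range h hL R ?_
    rw [R.exact m]
    have hm' : ∀ x ∈ LinearMap.ker (R.δ m).rangeRestrict,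
        ∀ j, (x : R.J (m + 1) → A) j ∈ Ring.jacobson A := by
      intro x hx j
      rw [LinearMap.ker_rangeRestrict, ← R.exact m] at hx
      obtain ⟨y, rfl⟩ := hx
      exact R.minimal (m + 1) y j
    have h3 : LinearMap.ker (R.δ m).rangeRestrict = ⊥ :=
      ker_zero (J := R.J (m + 1)) (v := R.v (m + 1)) (N := LinearMap.range (R.δ m)) h hL hp
        (R.δ m).rangeRestrict (LinearMap.surjective_rangeRestrict (R.δ m)) hm'
    rw [LinearMap.ker_rangeRestrict] at h3
    exact h3

/-- the linearity defect is at most the projective dimension -/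
theorem linDef_of_pd (h : Basic A e) {L : ℕ} (hL : rpow k A (L + 1) = ⊥) (R : MRes e M)
    {l : ℕ} (hl : projectiveDimension (ModuleCat.of A M) ≤ (l : ℕ)) : R.LinDefLE k l := by
  have h1 : HasProjectiveDimensionLT (ModuleCat.of A M) (l + 1) :=
    (projectiveDimension_le_iff _ l).1 hl
  intro i hi
  have h2 : IsEmpty (R.J (i + 1)) :=
    empty_succ h hL R (empty_of_pd h hL R h1) (i + 1) (by omega)
  refine ⟨fun f _ j => h2.elim j, fun s f _ _ => ⟨0, fun j => ?_, fun j => h2.elim j⟩⟩
  exact Submodule.zero_mem _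

/-- MAIN: projective dimension at most linearity defect plus `r L` -/
theorem pd_le [FiniteDimensional k A] (h : Basic A e) {L : ℕ} (hL : rpow k A (L + 1) = ⊥)
    (R : MRes e M) (hfin : projectiveDimension (ModuleCat.of A M) ≠ ⊤) {l : ℕ}
    (hl : R.LinDefLE k l) : projectiveDimension (ModuleCat.of A M) ≤ ((l + r * L : ℕ)) := by
  obtain ⟨m, hm⟩ := (projectiveDimension_ne_top_iff _).1 hfin
  obtain ⟨n, hn⟩ := finite_of_pd h hL R hm
  have hf := R.fin
  have h1 := length_le (filt_rpow h hL) (R.toFCx k h) hn
    (fun i hi => linExact_toFCx h R (hl i hi)) (l + r * L + 1) (by omega)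
  rw [projectiveDimension_le_iff]
  exact pd_of_length h.comp R h1

end Vale.Agent.P176
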