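import Vale.Agent.P176.LF

/-!
P176: the length of a finite minimal complex with exact linear part.
-/

namespace Vale.Agent.P176

open Polynomial Matrix

variable {k A : Type} [Field k] [Ring A] [Algebra k A]

section

variable (F : ℕ → Submodule k A) {r : ℕ} (e : Fin r → A) (L : ℕ)

/-- Cartan matrix of the associated graded algebra -/
noncomputable def CF : Matrix (Fin r) (Fin r) ℤ[X] := fun w u =>
  ∑ t ∈ Finset.range (L + 1), Polynomial.C
    ((cdim F e u w t : ℤ) - (cdim F e u w (t + 1) : ℤ)) * Polynomial.X ^ t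

variable {F e L}

theorem cdim_F_top (hF : Filt F e L) (u v : Fin r) {t : ℕ} (ht : L < t) :
    cdim F e u v t = 0 := by
  unfold cdim
  have h1 : corner F e u v t = ⊥ := by
    rw [eq_bot_iff]
    intro a ha
    exact (hF.bot t ht).le (mem_corner.1 ha).1
  rw [h1, finrank_bot]

theorem coeff_CF (hF : Filt F e L) (w u : Fin r) (s : ℕ) :
    (CF F e L w u).coeff s = (cdim F e u w s : ℤ) - (cdim F e u w (s + 1) : ℤ) := by
  unfold CF
  rw [Polynomial.finsetSum_coeff]
  simp only [Polynomial.coeff_C_mul, Polynomial.coeff_X_pow]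
  by_cases hs : s < L + 1
  · rw [Finset.sum_eq_single s]
    · simp
    · intro t _ hts
      rw [if_neg (fun h => hts h.symm), mul_zero]
    · intro hs'
      exact absurd (Finset.mem_range.2 hs) hs'
  · rw [cdim_F_top hF u w (by omega : L < s), cdim_F_top hF u w (by omega : L < s + 1)]
    rw [sub_self]
    refine Finset.sum_eq_zero fun t ht => ?_
    have := Finset.mem_range.1 ht
    rw [if_neg (by omega), mul_zero]

theorem natDegree_CF (hF : Filt F e L) (w u : Fin r) : (CF F e L w u).natDegree ≤ L := by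
  rw [Polynomial.natDegree_le_iff_coeff_eq_zero]
  intro N hN
  rw [coeff_CF hF, cdim_F_top hF u w hN, cdim_F_top hF u w (by omega : L < N + 1), sub_self]

variable {J : ℕ → Type} [∀ i, Fintype (J i)] [FiniteDimensional k A]

theorem coeff_vecMulF (hF : Filt F e L) (v : ∀ i, J i → Fin r) (n : ℕ) (u : Fin r) (s : ℕ) :
    ((hp v (fun i _ => i) n ᵥ* CF F e L) u).coeff s =
      ∑ i ∈ Finset.range (n + 1), (-1 : ℤ) ^ i *
        (if i ≤ s then yd F e (v i) u (s - i) else 0) := by
  have h1 : (hp v (fun i _ => i) n ᵥ* CF F e L) u = ∑ i ∈ Finset.range (n + 1), ∑ j : J i,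
      Polynomial.C ((-1 : ℤ) ^ i) * (Polynomial.X ^ i * CF F e L (v i j) u) := by
    have h2 : (hp v (fun i _ => i) n ᵥ* CF F e L) u =
        ∑ w, hp v (fun i _ => i) n w * CF F e L w u := rfl
    rw [h2]
    unfold hp
    simp only [Finset.sum_mul]
    rw [Finset.sum_comm]
    refine Finset.sum_congr rfl fun i _ => ?_
    rw [Finset.sum_comm]
    refine Finset.sum_congr rfl fun j _ => ?_
    rw [Finset.sum_eq_single (v i j)]
    · rw [if_pos rfl, mul_assoc]
    · intro w _ hw
      rw [if_neg (fun h => hw h.symm), zero_mul]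
    · intro hw
      exact absurd (Finset.mem_univ _) hw
  rw [h1, Polynomial.finsetSum_coeff]
  refine Finset.sum_congr rfl fun i _ => ?_
  rw [Polynomial.finsetSum_coeff]
  have h3 : ∀ j : J i, (Polynomial.C ((-1 : ℤ) ^ i) *
      (Polynomial.X ^ i * CF F e L (v i j) u)).coeff s = (-1 : ℤ) ^ i *
      (if i ≤ s then (cdim F e u (v i j) (s - i) : ℤ) - (cdim F e u (v i j) (s - i + 1) : ℤ)
        else 0) := by
    intro j
    rw [Polynomial.coeff_C_mul, Polynomial.coeff_X_pow_mul']
    split_ifs with h3
    · rw [coeff_CF hF]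
    · rfl
  rw [Finset.sum_congr rfl fun j _ => h3 j, ← Finset.mul_sum]
  split_ifs with h4
  · unfold yd
    rw [finrank_XF, finrank_XF]
    push_cast
    rw [Finset.sum_sub_distrib]
  · simp

/-- a finite complex whose linear part is exact (a resolution) has length at most `r L` -/
theorem length_le (hF : Filt F e L) {v : ∀ i, J i → Fin r} (R : FCx F e J v)
    {l n : ℕ} (hn : ∀ i, n < i → IsEmpty (J i)) (hl : ∀ i, l ≤ i → R.LinExact i) :
    ∀ i, l + r * L < i → IsEmpty (J i) := by
  intro i hi
  by_contra hne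
  rw [not_isEmpty_iff] at hne
  obtain ⟨j⟩ := hne
  obtain ⟨t, rfl⟩ := Nat.exists_eq_add_of_le (by omega : l ≤ i)
  have hvec : ∀ u, ((hp (fun i => v (l + i)) (fun i _ => i) n ᵥ* CF F e L) u).natDegree ≤ L := by
    intro u
    rw [Polynomial.natDegree_le_iff_coeff_eq_zero]
    intro m hm
    have h1 := coeff_vecMulF (J := fun i => J (l + i)) hF (fun i => v (l + i)) n u m
    rw [h1]
    have h2 := diag_zero hF R u hl hm
    have hy : ∀ i, n < i → ∀ s, yd F e (v (l + i)) u s = 0 := by
      intro i hi' s
      have hemp := hn (l + i) (by omega)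
      unfold yd
      rw [finrank_XF, finrank_XF]
      simp
    have h3 : ∀ N, n ≤ N → m ≤ N → ∑ i ∈ Finset.range (n + 1), (-1 : ℤ) ^ i *
        (if i ≤ m then yd F e (v (l + i)) u (m - i) else 0) =
        ∑ i ∈ Finset.range (N + 1), (-1 : ℤ) ^ i *
        (if i ≤ m then yd F e (v (l + i)) u (m - i) else 0) := by
      intro N h4 _
      refine Finset.sum_subset (Finset.range_mono (by omega)) ?_
      intro i _ hi'
      rw [Finset.mem_range, not_lt] at hi'
      rw [hy i (by omega)]
      simp
    have h5 : ∑ i ∈ Finset.range (m + 1), (-1 : ℤ) ^ i * yd F e (v (l + i)) u (m - i) =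
        ∑ i ∈ Finset.range (max n m + 1), (-1 : ℤ) ^ i *
        (if i ≤ m then yd F e (v (l + i)) u (m - i) else 0) := by
      have h6 : ∑ i ∈ Finset.range (m + 1), (-1 : ℤ) ^ i * yd F e (v (l + i)) u (m - i) =
          ∑ i ∈ Finset.range (m + 1), (-1 : ℤ) ^ i *
          (if i ≤ m then yd F e (v (l + i)) u (m - i) else 0) := by
        refine Finset.sum_congr rfl fun i hi' => ?_
        rw [if_pos (by have := Finset.mem_range.1 hi'; omega)]
      rw [h6]
      refine Finset.sum_subset (Finset.range_mono (by omega)) ?_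
      intro i _ hi'
      rw [Finset.mem_range, not_lt] at hi'
      rw [if_neg (by omega), mul_zero]
    rw [h3 (max n m) (le_max_left _ _) (le_max_right _ _), ← h5]
    exact h2
  have hdeg := natDegree_le_of_vecMul' (CF F e L) (hp (fun i => v (l + i)) (fun i _ => i) n) L L
    (natDegree_CF hF) (by
      intro a b hab
      rw [coeff_CF hF, hF.off b a (fun h => hab h.symm), sub_self]) (by
      intro a
      rw [coeff_CF hF, zero_add]
      have h1 := hF.on a
      have h2 : (cdim F e a a 1 : ℤ) < (cdim F e a a 0 : ℤ) := by exact_mod_cast h1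
      omega) hvec (v (l + t) j)
  have hr : 0 < r := Fin.pos (v (l + t) j)
  have hrL : L + (r - 1) * L = r * L := by
    obtain ⟨r', rfl⟩ := Nat.exists_eq_add_of_lt hr
    rw [zero_add, Nat.add_sub_cancel]
    ring
  rw [hrL] at hdeg
  have htn : t ≤ n := by
    by_contra hcon
    exact (hn (l + t) (by omega)).false j
  have hc := Polynomial.coeff_eq_zero_of_natDegree_lt (lt_of_le_of_lt hdeg (by omega : r * L < t))
  rw [coeff_hp] at hc
  rw [Finset.sum_eq_single t] at hc
  · have h1 : (Finset.univ.filter (fun j' : J (l + t) => v (l + t) j' = v (l + t) j ∧ t = t)).card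
        ≠ 0 := by
      refine (Finset.card_pos.2 ⟨j, ?_⟩).ne'
      rw [Finset.mem_filter]
      exact ⟨Finset.mem_univ _, rfl, rfl⟩
    rcases mul_eq_zero.1 hc with h2 | h2
    · exact absurd h2 (pow_ne_zero _ (by norm_num))
    · exact h1 (by exact_mod_cast h2)
  · intro i _ hit
    have : (Finset.univ.filter (fun j' : J (l + i) =>
        v (l + i) j' = v (l + t) j ∧ i = t)) = ∅ := by
      rw [Finset.filter_eq_empty_iff]
      rintro j' _ ⟨_, h⟩
      exact hit h
    rw [this]
    simp
  · intro ht
    exact absurd (Finset.mem_range.2 (by omega)) ht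

end

end Vale.Agent.P176
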