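import Vale.Agent.P176.Rad

/-!
P176: projective dimension and minimal resolutions.
-/

namespace Vale.Agent.P176

open CategoryTheory

variable {k : Type} [Field k] {A : Type} [Ring A] [Algebra k A] {r : ℕ} {e : Fin r → A}

theorem proj_projective (he : CompleteOrthogonalIdempotents e) {J : Type} [Fintype J]
    (v : J → Fin r) : Module.Projective A (Proj e v) := by
  let ρ : (J → A) →ₗ[A] Proj e v :=
    { toFun := fun f => ⟨fun j => f j * e (v j), fun j => by
        have : e (v j) * e (v j) = e (v j) := he.idem _
        rw [mul_assoc, this]⟩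
      map_add' := by
        intro f g
        apply Subtype.ext
        funext j
        change (f j + g j) * e (v j) = f j * e (v j) + g j * e (v j)
        rw [add_mul]
      map_smul' := by
        intro a f
        apply Subtype.ext
        funext j
        change (a * f j) * e (v j) = a * (f j * e (v j))
        rw [mul_assoc] }
  refine Module.Projective.of_split (Proj e v).subtype ρ ?_
  ext f j
  exact f.2 j

section res

variable {M : Type} [AddCommGroup M] [Module A M]

theorem pd_shift_zero (he : CompleteOrthogonalIdempotents e) (R : MRes e M) (n : ℕ) :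
    HasProjectiveDimensionLT (ModuleCat.of A M) (n + 2) ↔
      HasProjectiveDimensionLT (ModuleCat.of A (LinearMap.range (R.δ 0))) (n + 1) := by
  have := R.fin 0
  have hp : Module.Projective A (Proj e (R.v 0)) := proj_projective he _
  have hS := LinearMap.shortExact_shortComplexKer R.surj
  have h1 := hS.hasProjectiveDimensionLT_X₃_iff n ((IsProjective.iff_projective _).1 hp)
  rw [R.exact_zero]
  exact h1

theorem pd_shift (he : CompleteOrthogonalIdempotents e) (R : MRes e M) (i n : ℕ) :
    HasProjectiveDimensionLT (ModuleCat.of A (LinearMap.range (R.δ i))) (n + 2) ↔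
      HasProjectiveDimensionLT (ModuleCat.of A (LinearMap.range (R.δ (i + 1)))) (n + 1) := by
  have := R.fin (i + 1)
  have hp : Module.Projective A (Proj e (R.v (i + 1))) := proj_projective he _
  have hS := LinearMap.shortExact_shortComplexKer (R := A) (M := Proj e (R.v (i + 1)))
    (N := LinearMap.range (R.δ i)) (f := (R.δ i).rangeRestrict)
    (LinearMap.surjective_rangeRestrict (R.δ i))
  have h1 := hS.hasProjectiveDimensionLT_X₃_iff n ((IsProjective.iff_projective _).1 hp)
  rw [R.exact i, ← LinearMap.ker_rangeRestrict (R.δ i)]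
  exact h1

theorem pd_iff (he : CompleteOrthogonalIdempotents e) (R : MRes e M) (i n : ℕ) :
    HasProjectiveDimensionLT (ModuleCat.of A M) (n + i + 2) ↔
      HasProjectiveDimensionLT (ModuleCat.of A (LinearMap.range (R.δ i))) (n + 1) := by
  induction i generalizing n with
  | zero => exact pd_shift_zero he R n
  | succ i ih =>
    have h1 : n + (i + 1) + 2 = (n + 1) + i + 2 := by ring
    rw [h1, ih (n + 1), pd_shift he R i n]

/-- an element of a submodule of `rad(A) P` which is a direct summand vanishes -/
theorem split_zero (h : Basic A e) {L : ℕ} (hL : rpow k A (L + 1) = ⊥) {J : Type} [Fintype J]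
    {v : J → Fin r} (K : Submodule A (Proj e v)) (ρ : Proj e v →ₗ[A] Proj e v)
    (h1 : ∀ x, ρ x ∈ K) (h2 : ∀ x ∈ K, ρ x = x)
    (h3 : ∀ x ∈ K, ∀ j, (x : J → A) j ∈ Ring.jacobson A) : K = ⊥ := by
  classical
  have key : ∀ s, ∀ x ∈ K, ∀ j, (x : J → A) j ∈ rpow k A (s + 1) := by
    intro s
    induction s with
    | zero =>
      intro x hx j
      rw [zero_add, rpow_one]
      exact h3 x hx j
    | succ s ih =>
      intro x hx j
      have h4 : x = ∑ j', (x : J → A) j' • ρ (gen h.comp v j') := by
        conv_lhs => rw [← h2 x hx, sum_gen h.comp v x, map_sum]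
        exact Finset.sum_congr rfl fun j' _ => by rw [map_smul]
      rw [h4, Submodule.coe_sum, Finset.sum_apply]
      refine Submodule.sum_mem _ fun j' _ => ?_
      exact rad_mul_rpow (s + 1) (Submodule.mul_mem_mul (h3 x hx j') (ih _ (h1 _) j))
  rw [eq_bot_iff]
  intro x hx
  rw [Submodule.mem_bot]
  apply Subtype.ext
  funext j
  have h5 := key L x hx j
  rw [hL] at h5
  exact h5

/-- if the map `P_(i+1) → P_i` vanishes then `P_(i+1) = 0` -/
theorem empty_of_range (h : Basic A e) {L : ℕ} (hL : rpow k A (L + 1) = ⊥) (R : MRes e M) {i : ℕ}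
    (hi : LinearMap.range (R.δ i) = ⊥) : IsEmpty (R.J (i + 1)) := by
  classical
  refine ⟨fun j => ?_⟩
  have h1 : gen h.comp (R.v (i + 1)) j ∈ LinearMap.ker (R.δ i) := by
    rw [LinearMap.range_eq_bot.1 hi, LinearMap.ker_zero]
    exact Submodule.mem_top
  rw [← R.exact i] at h1
  obtain ⟨y, hy⟩ := h1
  have h2 := R.minimal (i + 1) y j
  rw [hy] at h2
  have h3 : (gen h.comp (R.v (i + 1)) j : R.J (i + 1) → A) j = e (R.v (i + 1) j) :=
    Pi.single_eq_same j _
  rw [h3] at h2
  exact h.notMem hL _ h2

theorem range_of_empty (R : MRes e M) {i : ℕ} (hi : IsEmpty (R.J i)) :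
    LinearMap.range (R.δ i) = ⊥ := by
  rw [eq_bot_iff]
  intro x _
  rw [Submodule.mem_bot]
  apply Subtype.ext
  funext j
  exact hi.elim j

theorem range_of_empty' (R : MRes e M) {i : ℕ} (hi : IsEmpty (R.J (i + 1))) :
    LinearMap.range (R.δ i) = ⊥ := by
  rw [eq_bot_iff]
  rintro x ⟨y, rfl⟩
  have : y = 0 := by
    apply Subtype.ext
    funext j
    exact hi.elim j
  rw [this, map_zero]
  exact Submodule.zero_mem _

theorem empty_succ (h : Basic A e) {L : ℕ} (hL : rpow k A (L + 1) = ⊥) (R : MRes e M) {i : ℕ} (hi : IsEmpty (R.J i)) :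
    ∀ m, i ≤ m → IsEmpty (R.J m) := by
  intro m hm
  induction m, hm using Nat.le_induction with
  | base => exact hi
  | succ m _ ih => exact empty_of_range h hL R (range_of_empty R ih)

/-- finite projective dimension: the minimal resolution is finite -/
theorem finite_of_pd (h : Basic A e) {L : ℕ} (hL : rpow k A (L + 1) = ⊥) (R : MRes e M)
    {m : ℕ} (hm : HasProjectiveDimensionLT (ModuleCat.of A M) m) :
    ∃ n, ∀ i, n < i → IsEmpty (R.J i) := by
  have h1 : HasProjectiveDimensionLT (ModuleCat.of A M) (0 + m + 2) :=
    hasProjectiveDimensionLT_of_ge _ m _ (by omega)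
  rw [pd_iff h.comp R m 0, zero_add] at h1
  have hp : Module.Projective A (LinearMap.range (R.δ m)) := by
    have h2 : Projective (ModuleCat.of A (LinearMap.range (R.δ m))) := inferInstance
    exact (IsProjective.iff_projective _).2 h2
  obtain ⟨s, hs⟩ := Module.projective_lifting_property (R.δ m).rangeRestrict
    (LinearMap.id : LinearMap.range (R.δ m) →ₗ[A] LinearMap.range (R.δ m))
    (LinearMap.surjective_rangeRestrict _)
  have hf := R.fin (m + 1)
  have hs' : ∀ x : LinearMap.range (R.δ m), R.δ m (s x) = (x : Proj e (R.v m)) := by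
    intro x
    have := congrArg (fun g => ((g x : LinearMap.range (R.δ m)) : Proj e (R.v m))) hs
    exact this
  have hz : LinearMap.ker (R.δ m) = ⊥ := by
    refine split_zero h hL (LinearMap.ker (R.δ m))
      (LinearMap.id - s.comp (R.δ m).rangeRestrict) ?_ ?_ ?_
    · intro x
      rw [LinearMap.mem_ker]
      change R.δ m (x - s ((R.δ m).rangeRestrict x)) = 0
      rw [map_sub, hs']
      exact sub_self _
    · intro x hx
      change x - s ((R.δ m).rangeRestrict x) = x
      have : (R.δ m).rangeRestrict x = 0 := Subtype.ext hx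
      rw [this, map_zero, sub_zero]
    · intro x hx j
      rw [← R.exact m] at hx
      obtain ⟨y, rfl⟩ := hx
      exact R.minimal (m + 1) y j
  have hr : LinearMap.range (R.δ (m + 1)) = ⊥ := by
    rw [R.exact m]
    exact hz
  exact ⟨m + 1, fun i hi => empty_succ h hL R (empty_of_range h hL R hr) i (by omega)⟩

/-- a resolution of length `m` bounds the projective dimension -/
theorem pd_of_length (he : CompleteOrthogonalIdempotents e) (R : MRes e M) {m : ℕ}
    (hm : IsEmpty (R.J (m + 1))) : HasProjectiveDimensionLT (ModuleCat.of A M) (m + 1) := by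
  cases m with
  | zero =>
    have := R.fin 0
    have hp : Module.Projective A (Proj e (R.v 0)) := proj_projective he _
    have hp' : Projective (ModuleCat.of A (Proj e (R.v 0))) := (IsProjective.iff_projective _).1 hp
    have hS := LinearMap.shortExact_shortComplexKer R.surj
    refine hS.hasProjectiveDimensionLT_X₃ 0 ?_ ?_
    · rw [hasProjectiveDimensionLT_zero_iff_isZero]
      have h0 : LinearMap.ker R.ε = ⊥ := by
        rw [← R.exact_zero]
        exact range_of_empty' R hm
      have hsub : Subsingleton (LinearMap.ker R.ε) := by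
        rw [h0]
        infer_instance
      exact ModuleCat.isZero_of_subsingleton _
    · exact (inferInstance : HasProjectiveDimensionLT (ModuleCat.of A (Proj e (R.v 0))) 1)
  | succ m =>
    have h1 : m + 1 + 1 = 0 + m + 2 := by ring
    rw [h1, pd_iff he R m 0, zero_add]
    have := R.fin (m + 1)
    have hp : Module.Projective A (Proj e (R.v (m + 1))) := proj_projective he _
    have hp' : Projective (ModuleCat.of A (Proj e (R.v (m + 1)))) :=
      (IsProjective.iff_projective _).1 hp
    have hS := LinearMap.shortExact_shortComplexKer (R := A) (M := Proj e (R.v (m + 1)))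
      (N := LinearMap.range (R.δ m)) (f := (R.δ m).rangeRestrict)
      (LinearMap.surjective_rangeRestrict (R.δ m))
    refine hS.hasProjectiveDimensionLT_X₃ 0 ?_ ?_
    · rw [hasProjectiveDimensionLT_zero_iff_isZero]
      have h0 : LinearMap.ker (R.δ m).rangeRestrict = ⊥ := by
        rw [LinearMap.ker_rangeRestrict, ← R.exact m]
        exact range_of_empty' R hm
      have hsub : Subsingleton (LinearMap.ker (R.δ m).rangeRestrict) := by
        rw [h0]
        infer_instance
      exact ModuleCat.isZero_of_subsingleton _
    · exact (inferInstance : HasProjectiveDimensionLT (ModuleCat.of A (Proj e (R.v (m + 1)))) 1)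

end res

end Vale.Agent.P176
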