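import Vale.Agent.P176.Dims

/-!
P176: the Euler polynomial has small degree.
-/

namespace Vale.Agent.P176

open Polynomial Matrix

section det

variable {r : ℕ}

theorem natDegree_adjugate (M : Matrix (Fin r) (Fin r) ℤ[X]) (L : ℕ)
    (hM : ∀ i j, (M i j).natDegree ≤ L) (i j : Fin r) :
    (M.adjugate i j).natDegree ≤ (r - 1) * L := by
  rw [Matrix.adjugate_apply, Matrix.det_apply]
  have hb : ∀ a b, ((M.updateRow j (Pi.single i 1)) a b).natDegree ≤ if a = j then 0 else L := by
    intro a b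
    by_cases ha : a = j
    · subst ha
      rw [Matrix.updateRow_self, if_pos rfl]
      by_cases hb : b = i
      · subst hb
        simp
      · rw [Pi.single_eq_of_ne hb]
        simp
    · rw [Matrix.updateRow_ne ha, if_neg ha]
      exact hM a b
  have hsum : ∑ a : Fin r, (if a = j then 0 else L) = (r - 1) * L := by
    have h1 : ∑ a : Fin r, (if a = j then 0 else L) =
        ∑ a ∈ Finset.univ.erase j, L := by
      rw [← Finset.add_sum_erase Finset.univ _ (Finset.mem_univ j), if_pos rfl, zero_add]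
      exact Finset.sum_congr rfl fun a ha => if_neg (Finset.ne_of_mem_erase ha)
    rw [h1, Finset.sum_const, Finset.card_erase_of_mem (Finset.mem_univ j), Finset.card_univ,
      Fintype.card_fin, smul_eq_mul]
  refine Polynomial.natDegree_sum_le_of_forall_le _ _ fun σ _ => ?_
  refine (Polynomial.natDegree_smul_le _ _).trans ?_
  refine (Polynomial.natDegree_prod_le _ _).trans ?_
  refine (Finset.sum_le_sum fun a _ => hb (σ a) a).trans ?_
  rw [Equiv.sum_comp σ (fun a => if a = j then 0 else L), hsum]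

/-- the degree argument -/
theorem natDegree_le_of_vecMul' (M : Matrix (Fin r) (Fin r) ℤ[X]) (h : Fin r → ℤ[X]) (L D : ℕ)
    (hM : ∀ i j, (M i j).natDegree ≤ L) (h0 : ∀ i j, i ≠ j → (M i j).coeff 0 = 0)
    (h1 : ∀ i, (M i i).coeff 0 ≠ 0)
    (hD : ∀ j, ((h ᵥ* M) j).natDegree ≤ D) (w : Fin r) :
    (h w).natDegree ≤ D + (r - 1) * L := by
  have hdet : M.det ≠ 0 := by
    intro hz
    have h2 := congrArg (Polynomial.evalRingHom (0 : ℤ)) hz
    rw [RingHom.map_det, map_zero] at h2
    have h3 : (Polynomial.evalRingHom (0 : ℤ)).mapMatrix M =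
        Matrix.diagonal (fun i => (M i i).coeff 0) := by
      ext i j
      rw [RingHom.mapMatrix_apply, Matrix.map_apply, Polynomial.coe_evalRingHom,
        ← Polynomial.coeff_zero_eq_eval_zero, Matrix.diagonal_apply]
      by_cases hij : i = j
      · subst hij
        rw [if_pos rfl]
      · rw [if_neg hij, h0 i j hij]
    rw [h3, Matrix.det_diagonal] at h2
    exact Finset.prod_ne_zero_iff.2 (fun i _ => h1 i) h2
  by_cases hw : h w = 0
  · rw [hw]
    simp
  · have h1 : (h ᵥ* M) ᵥ* M.adjugate = M.det • h := by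
      rw [Matrix.vecMul_vecMul, Matrix.mul_adjugate, Matrix.vecMul_smul, Matrix.vecMul_one]
    have h2 := congrFun h1 w
    rw [Pi.smul_apply, smul_eq_mul] at h2
    have h3 : (((h ᵥ* M) ᵥ* M.adjugate) w).natDegree ≤ D + (r - 1) * L := by
      have h4 : ((h ᵥ* M) ᵥ* M.adjugate) w = ∑ j, (h ᵥ* M) j * M.adjugate j w := rfl
      rw [h4]
      refine Polynomial.natDegree_sum_le_of_forall_le _ _ fun j _ => ?_
      refine (Polynomial.natDegree_mul_le).trans ?_
      exact add_le_add (hD j) (natDegree_adjugate M L hM j w)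
    rw [h2, Polynomial.natDegree_mul hdet hw] at h3
    omega

theorem natDegree_le_of_vecMul (M : Matrix (Fin r) (Fin r) ℤ[X]) (h : Fin r → ℤ[X]) (L D : ℕ)
    (hM : ∀ i j, (M i j).natDegree ≤ L) (h0 : ∀ i j, (M i j).coeff 0 = if i = j then 1 else 0)
    (hD : ∀ j, ((h ᵥ* M) j).natDegree ≤ D) (w : Fin r) :
    (h w).natDegree ≤ D + (r - 1) * L := by
  refine natDegree_le_of_vecMul' M h L D hM (fun i j hij => ?_) (fun i => ?_) hD w
  · rw [h0, if_neg hij]
  · rw [h0, if_pos rfl]
    exact one_ne_zero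

end det

variable {k A : Type} [Field k] [Ring A] [Algebra k A]

section main

variable (𝒜 : ℕ → Submodule k A) {r : ℕ} (e : Fin r → A) (L : ℕ)

/-- graded Cartan matrix -/
noncomputable def CM : Matrix (Fin r) (Fin r) ℤ[X] := fun w u =>
  ∑ t ∈ Finset.range (L + 1), Polynomial.C (cdim 𝒜 e u w t : ℤ) * Polynomial.X ^ t

variable {𝒜 e L}

theorem coeff_CM (h : Alg 𝒜 e L) (w u : Fin r) (s : ℕ) :
    (CM 𝒜 e L w u).coeff s = (cdim 𝒜 e u w s : ℤ) := by
  unfold CM
  rw [Polynomial.finsetSum_coeff]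
  simp only [Polynomial.coeff_C_mul, Polynomial.coeff_X_pow]
  by_cases hs : s < L + 1
  · rw [Finset.sum_eq_single s]
    · simp
    · intro t _ hts
      rw [if_neg (fun h => hts h.symm), mul_zero]
    · intro hs'
      exact absurd (Finset.mem_range.2 hs) hs'
  · rw [cdim_top h u w (by omega)]
    refine Finset.sum_eq_zero fun t ht => ?_
    have := Finset.mem_range.1 ht
    rw [if_neg (by omega), mul_zero]

theorem natDegree_CM (h : Alg 𝒜 e L) (w u : Fin r) : (CM 𝒜 e L w u).natDegree ≤ L := by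
  rw [Polynomial.natDegree_le_iff_coeff_eq_zero]
  intro N hN
  rw [coeff_CM h, cdim_top h u w hN]
  rfl

variable {J : ℕ → Type} [∀ i, Fintype (J i)]

/-- Euler polynomial of the vertex `w` -/
noncomputable def hp (v : ∀ i, J i → Fin r) (d : ∀ i, J i → ℕ) (n : ℕ) (w : Fin r) : ℤ[X] :=
  ∑ i ∈ Finset.range (n + 1), ∑ j : J i,
    if v i j = w then Polynomial.C ((-1 : ℤ) ^ i) * Polynomial.X ^ (d i j) else 0

theorem coeff_hp (v : ∀ i, J i → Fin r) (d : ∀ i, J i → ℕ) (n : ℕ) (w : Fin r) (t : ℕ) :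
    (hp v d n w).coeff t = ∑ i ∈ Finset.range (n + 1), (-1 : ℤ) ^ i *
      ((Finset.univ.filter (fun j : J i => v i j = w ∧ d i j = t)).card : ℤ) := by
  unfold hp
  rw [Polynomial.finsetSum_coeff]
  refine Finset.sum_congr rfl fun i _ => ?_
  rw [Polynomial.finsetSum_coeff, Finset.card_filter]
  push_cast
  rw [Finset.mul_sum]
  refine Finset.sum_congr rfl fun j _ => ?_
  by_cases h1 : v i j = w
  · rw [if_pos h1, Polynomial.coeff_C_mul, Polynomial.coeff_X_pow]
    by_cases h2 : d i j = t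
    · rw [if_pos h2.symm, if_pos ⟨h1, h2⟩]
    · rw [if_neg (fun h => h2 h.symm), if_neg (fun h => h2 h.2)]
  · rw [if_neg h1, if_neg (fun h => h1 h.1)]
    simp

theorem coeff_vecMul [FiniteDimensional k A] (h : Alg 𝒜 e L) (v : ∀ i, J i → Fin r)
    (d : ∀ i, J i → ℕ) (n : ℕ) (u : Fin r) (s : ℕ) :
    ((hp v d n ᵥ* CM 𝒜 e L) u).coeff s = ∑ i ∈ Finset.range (n + 1), (-1 : ℤ) ^ i *
      (Module.finrank k (X 𝒜 e (v i) (d i) u s) : ℤ) := by
  have h1 : (hp v d n ᵥ* CM 𝒜 e L) u = ∑ i ∈ Finset.range (n + 1), ∑ j : J i,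
      Polynomial.C ((-1 : ℤ) ^ i) * (Polynomial.X ^ (d i j) * CM 𝒜 e L (v i j) u) := by
    have h2 : (hp v d n ᵥ* CM 𝒜 e L) u = ∑ w, hp v d n w * CM 𝒜 e L w u := rfl
    rw [h2]
    unfold hp
    simp only [Finset.sum_mul]
    rw [Finset.sum_comm]
    refine Finset.sum_congr rfl fun i _ => ?_
    rw [Finset.sum_comm]
    refine Finset.sum_congr rfl fun j _ => ?_
    rw [Finset.sum_eq_single (v i j)]
    · rw [if_pos rfl, mul_assoc]
    · intro w _ hw
      rw [if_neg (fun h => hw h.symm), zero_mul]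
    · intro hw
      exact absurd (Finset.mem_univ _) hw
  rw [h1, Polynomial.finsetSum_coeff]
  refine Finset.sum_congr rfl fun i _ => ?_
  rw [Polynomial.finsetSum_coeff, finrank_X, Nat.cast_sum, Finset.mul_sum]
  refine Finset.sum_congr rfl fun j _ => ?_
  rw [Polynomial.coeff_C_mul, Polynomial.coeff_X_pow_mul']
  split_ifs with h3
  · rw [coeff_CM h]
  · simp

/-- the alternating sums of the graded Betti numbers vanish in high degrees -/
theorem betti_cancel [FiniteDimensional k A] [GradedAlgebra 𝒜] (h : Alg 𝒜 e L)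
    {v : ∀ i, J i → Fin r} {d : ∀ i, J i → ℕ} (R : GRes 𝒜 e J v d) {n D : ℕ}
    (hn : ∀ i, n < i → IsEmpty (J i))
    (hs : ∀ s, D < s → ∀ f : Proj e (v 0), Homog 𝒜 (d 0) s (f : J 0 → A) →
      f ∈ LinearMap.range (R.δ 0)) (w : Fin r) {t : ℕ} (ht : D + (r - 1) * L < t) :
    ∑ i ∈ Finset.range (n + 1), (-1 : ℤ) ^ i *
      ((Finset.univ.filter (fun j : J i => v i j = w ∧ d i j = t)).card : ℤ) = 0 := by
  rw [← coeff_hp]
  refine Polynomial.coeff_eq_zero_of_natDegree_lt (lt_of_le_of_lt ?_ ht)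
  refine natDegree_le_of_vecMul (CM 𝒜 e L) (hp v d n) L D (natDegree_CM h) ?_ ?_ w
  · intro i j
    rw [coeff_CM h, cdim_zero h]
    by_cases hij : j = i
    · rw [if_pos hij, if_pos hij.symm]
      rfl
    · rw [if_neg hij, if_neg (fun h => hij h.symm)]
      rfl
  · intro u
    rw [Polynomial.natDegree_le_iff_coeff_eq_zero]
    intro s hs'
    rw [coeff_vecMul h]
    exact euler_zero h R u hn (hs s hs')

end main

end Vale.Agent.P176
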