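import Vale.Agent.P176.Main

/-!
P176: the radical filtration.
-/

namespace Vale.Agent.P176

variable {A : Type} [Ring A]

variable (k : Type) [Field k] [Algebra k A]

variable {k}

theorem top_mul_rad : (⊤ : Submodule k A) * (Ring.jacobson A).restrictScalars k ≤
    (Ring.jacobson A).restrictScalars k := by
  rw [Submodule.mul_le]
  intro a _ x hx
  exact Ideal.mul_mem_left _ a hx

theorem rad_mul_top : (Ring.jacobson A).restrictScalars k * (⊤ : Submodule k A) ≤
    (Ring.jacobson A).restrictScalars k := by
  rw [Submodule.mul_le]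
  intro x hx a _
  exact Ideal.mul_mem_right a _ hx

theorem mem_rpow_zero (a : A) : a ∈ rpow k A 0 := by
  unfold rpow
  rw [pow_zero, one_mul]
  exact Submodule.mem_top

theorem rpow_one : rpow k A 1 = (Ring.jacobson A).restrictScalars k := by
  unfold rpow
  rw [pow_one]
  refine le_antisymm rad_mul_top ?_
  intro x hx
  have := Submodule.mul_mem_mul hx (Submodule.mem_top (x := (1 : A)) (R := k))
  rwa [mul_one] at this

theorem rpow_anti (s : ℕ) : rpow k A (s + 1) ≤ rpow k A s := by
  unfold rpow
  rw [pow_succ, mul_assoc]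
  exact mul_le_mul' le_rfl le_top

theorem rpow_bot {L : ℕ} (hL : rpow k A (L + 1) = ⊥) {s : ℕ} (hs : L < s) : rpow k A s = ⊥ := by
  rw [eq_bot_iff, ← hL]
  exact (antitone_nat_of_succ_le (f := rpow k A) (fun n => rpow_anti n)) (by omega)

theorem top_mul_rpow (s : ℕ) : (⊤ : Submodule k A) * rpow k A s ≤ rpow k A s := by
  unfold rpow
  cases s with
  | zero =>
    rw [pow_zero, one_mul]
    exact le_top
  | succ s =>
    rw [pow_succ', ← mul_assoc, ← mul_assoc]
    exact mul_le_mul' (mul_le_mul' top_mul_rad le_rfl) le_rfl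

theorem rpow_mul_rad (s : ℕ) :
    rpow k A s * (Ring.jacobson A).restrictScalars k ≤ rpow k A (s + 1) := by
  unfold rpow
  rw [mul_assoc, pow_succ, mul_assoc]
  refine mul_le_mul' le_rfl ?_
  refine top_mul_rad.trans ?_
  intro x hx
  have := Submodule.mul_mem_mul hx (Submodule.mem_top (x := (1 : A)) (R := k))
  rwa [mul_one] at this

theorem rad_mul_rpow (s : ℕ) :
    (Ring.jacobson A).restrictScalars k * rpow k A s ≤ rpow k A (s + 1) := by
  unfold rpow
  rw [← mul_assoc, pow_succ']

section

variable {r : ℕ} {e : Fin r → A}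

theorem Basic.notMem (h : Basic A e) {L : ℕ} (hL : rpow k A (L + 1) = ⊥) (u : Fin r) :
    e u ∉ Ring.jacobson A := by
  intro hu
  have h1 : ∀ s, e u ∈ rpow k A s := by
    intro s
    induction s with
    | zero => exact mem_rpow_zero _
    | succ s ih =>
      have h2 := rad_mul_rpow s (Submodule.mul_mem_mul (hu : e u ∈
        (Ring.jacobson A).restrictScalars k) ih)
      have h3 : e u * e u = e u := h.comp.idem u
      rwa [h3] at h2
  have h4 := h1 (L + 1)
  rw [hL, Submodule.mem_bot] at h4
  exact h.ne u h4

theorem filt_rpow [FiniteDimensional k A] (h : Basic A e) {L : ℕ}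
    (hL : rpow k A (L + 1) = ⊥) : Filt (rpow k A) e L where
  anti := rpow_anti
  bot := fun s hs => rpow_bot hL hs
  idem := fun u => h.comp.idem u
  left := fun s u a ha => top_mul_rpow s (Submodule.mul_mem_mul Submodule.mem_top ha)
  off := by
    intro u v huv
    unfold cdim
    have h1 : corner (rpow k A) e u v 0 = corner (rpow k A) e u v 1 := by
      ext a
      rw [mem_corner, mem_corner]
      constructor
      · rintro ⟨_, h2, h3⟩
        refine ⟨?_, h2, h3⟩
        rw [rpow_one]
        have h4 := h.off u v huv a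
        rw [h2, h3] at h4
        exact h4
      · rintro ⟨_, h2, h3⟩
        exact ⟨mem_rpow_zero a, h2, h3⟩
    rw [h1]
  on := by
    intro u
    unfold cdim
    refine Submodule.finrank_lt_finrank_of_lt ?_
    refine lt_of_le_of_ne ?_ ?_
    · intro a ha
      obtain ⟨_, h2, h3⟩ := mem_corner.1 ha
      exact mem_corner.2 ⟨mem_rpow_zero a, h2, h3⟩
    · intro heq
      have h1 : e u * e u = e u := h.comp.idem u
      have h2 : e u ∈ corner (rpow k A) e u u 0 := mem_corner.2 ⟨mem_rpow_zero _, h1, h1⟩
      rw [← heq] at h2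
      have h3 := (mem_corner.1 h2).1
      rw [rpow_one] at h3
      exact h.notMem hL u h3

/-- the generator at the place `j` -/
def gen (he : CompleteOrthogonalIdempotents e) {J : Type} [DecidableEq J] (v : J → Fin r)
    (j : J) : Proj e v :=
  ⟨Pi.single j (e (v j)), by
    intro j'
    by_cases h : j' = j
    · subst h
      rw [Pi.single_eq_same]
      exact he.idem _
    · rw [Pi.single_eq_of_ne h, zero_mul]⟩

theorem sum_gen (he : CompleteOrthogonalIdempotents e) {J : Type} [DecidableEq J] [Fintype J]
    (v : J → Fin r) (f : Proj e v) : f = ∑ j, (f : J → A) j • gen he v j := by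
  apply Subtype.ext
  funext j'
  rw [Submodule.coe_sum, Finset.sum_apply, Finset.sum_eq_single j']
  · change (f : J → A) j' = (f : J → A) j' * (Pi.single j' (e (v j')) : J → A) j'
    rw [Pi.single_eq_same]
    exact (f.2 j').symm
  · intro j _ hj
    change (f : J → A) j * (Pi.single j (e (v j)) : J → A) j' = 0
    rw [Pi.single_eq_of_ne (fun h => hj h.symm), mul_zero]
  · intro h
    exact absurd (Finset.mem_univ _) h

/-- the complex of a minimal resolution raises the radical filtration -/
def MRes.toFCx (k : Type) [Field k] [Algebra k A] (h : Basic A e) {M : Type}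
    [AddCommGroup M] [Module A M] (R : MRes e M) : FCx (rpow k A) e R.J R.v where
  δ := R.δ
  cx := by
    intro i f
    have h1 : R.δ (i + 1) f ∈ LinearMap.ker (R.δ i) := by
      rw [← R.exact i]
      exact ⟨f, rfl⟩
    exact h1
  up := by
    classical
    intro i s f hf j'
    have := R.fin (i + 1)
    rw [sum_gen h.comp (R.v (i + 1)) f, map_sum, Submodule.coe_sum, Finset.sum_apply]
    refine Submodule.sum_mem _ fun j _ => ?_
    rw [map_smul]
    change (f : R.J (i + 1) → A) j * (R.δ i (gen h.comp (R.v (i + 1)) j) : R.J i → A) j' ∈ _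
    exact rpow_mul_rad s (Submodule.mul_mem_mul (hf j) (R.minimal i _ j'))

end

end Vale.Agent.P176
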