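import Mathlib

/-!
P176: the definitions that the statement of the hand-in uses.
-/

namespace Vale.Agent.P176

/-- The left module `A e_{v j}`, `j ∈ J`, summed over `j`: families `f : J → A` with
`f j ∈ A e_{v j}`. It is a finitely generated projective left `A`-module. -/
def Proj {A : Type} [Ring A] {r : ℕ} (e : Fin r → A) {J : Type} (v : J → Fin r) :
    Submodule A (J → A) where
  carrier := {f | ∀ j, f j * e (v j) = f j}
  add_mem' := by
    intro f g hf hg j
    rw [Pi.add_apply, add_mul, hf j, hg j]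
  zero_mem' := by
    intro j
    rw [Pi.zero_apply, zero_mul]
  smul_mem' := by
    intro a f hf j
    rw [Pi.smul_apply, smul_eq_mul, mul_assoc, hf j]

/-- `A` is basic: `e` is a complete set of nonzero orthogonal idempotents, `e_u A e_v` is
contained in the radical for `u ≠ v`, and `e_u A e_u` is local (every element outside the radical
has a left inverse); so `A / rad(A)` is a product of `r` division rings. -/
structure Basic (A : Type) [Ring A] {r : ℕ} (e : Fin r → A) : Prop where
  comp : CompleteOrthogonalIdempotents e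
  ne : ∀ v, e v ≠ 0
  off : ∀ u v, u ≠ v → ∀ a, e u * a * e v ∈ Ring.jacobson A
  loc : ∀ u a, e u * a * e u ∉ Ring.jacobson A → ∃ b, b * (e u * a * e u) = e u

/-- the powers of the radical: `rpow k A s = rad(A)^s`, with `rpow k A 0 = A` -/
def rpow (k : Type) [Field k] (A : Type) [Ring A] [Algebra k A] (s : ℕ) : Submodule k A :=
  ((Ring.jacobson A).restrictScalars k) ^ s * ⊤

/-- the module `P = A e_{v j}` summed over `j`, as a type -/
def PM {A : Type} [Ring A] {r : ℕ} (e : Fin r → A) {J : Type} (v : J → Fin r) : Type :=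
  Proj e v

instance {A : Type} [Ring A] {r : ℕ} (e : Fin r → A) {J : Type} (v : J → Fin r) :
    AddCommGroup (PM e v) := inferInstanceAs (AddCommGroup (Proj e v))

instance {A : Type} [Ring A] {r : ℕ} (e : Fin r → A) {J : Type} (v : J → Fin r) :
    Module A (PM e v) := inferInstanceAs (Module A (Proj e v))

/-- the `j`-th component of an element of `P` -/
def PM.at {A : Type} [Ring A] {r : ℕ} {e : Fin r → A} {J : Type} {v : J → Fin r}
    (f : PM e v) (j : J) : A := f.1 j

/-- `f` lies in `rad(A)^s P` -/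
def PM.InRad (k : Type) [Field k] {A : Type} [Ring A] [Algebra k A] {r : ℕ} {e : Fin r → A}
    {J : Type} {v : J → Fin r} (s : ℕ) (f : PM e v) : Prop :=
  ∀ j, f.at j ∈ rpow k A s

/-- A sequence `... → P_2 → P_1 → P_0` of finite direct sums of modules `A e_v`. -/
structure Cx {A : Type} [Ring A] {r : ℕ} (e : Fin r → A) where
  J : ℕ → Type
  fin : ∀ i, Fintype (J i)
  v : ∀ i, J i → Fin r
  δ : ∀ i, PM e (v (i + 1)) →ₗ[A] PM e (v i)

section

variable {A : Type} [Ring A] {r : ℕ} {e : Fin r → A}

/-- the map `P_(i+1) → P_i` -/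
def Cx.d (C : Cx e) (i : ℕ) (f : PM e (C.v (i + 1))) : PM e (C.v i) := C.δ i f

/-- exactness at `P_(i+1)` -/
def Cx.ExactAt (C : Cx e) (i : ℕ) : Prop :=
  ∀ f : PM e (C.v (i + 1)), C.d i f = 0 ↔ ∃ g, C.d (i + 1) g = f

/-- the image of `P_(i+1) → P_i` lies in `rad(A) P_i` -/
def Cx.MinimalAt (C : Cx e) (i : ℕ) : Prop :=
  ∀ f j, (C.d i f).at j ∈ Ring.jacobson A

/-- A minimal projective resolution `... → P_1 → P_0 → M → 0` of the left `A`-module `M`. -/
structure MinRes (e : Fin r → A) (M : Type) [AddCommGroup M] [Module A M] extends Cx e where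
  ε : PM e (toCx.v 0) →ₗ[A] M
  surj : ∀ m : M, ∃ f, ε f = m
  exact_zero : ∀ f, ε f = 0 ↔ ∃ g, toCx.d 0 g = f
  exact : ∀ i, toCx.ExactAt i
  minimal : ∀ i, toCx.MinimalAt i

variable (k : Type) [Field k] [Algebra k A]

/-- The associated graded complex `lin P` of a minimal complex `P` (for the filtrations
`rad(A)^s P_i`; the maps send `rad(A)^s P_(i+1)` to `rad(A)^(s+1) P_i`) is exact at the place
`i + 1` in the lowest internal degree. -/
def Cx.LinExactZero (C : Cx e) (i : ℕ) : Prop :=
  ∀ f, (C.d i f).InRad k 2 → f.InRad k 1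

/-- The same for the other internal degrees. -/
def Cx.LinExactSucc (C : Cx e) (i : ℕ) : Prop :=
  ∀ s f, f.InRad k (s + 1) → (C.d i f).InRad k (s + 3) →
    ∃ g, g.InRad k s ∧ (f - C.d (i + 1) g).InRad k (s + 2)

/-- the linearity defect is at most `l`: `H_(i+1)(lin P) = 0` for all `i ≥ l` -/
def Cx.LinDefLE (C : Cx e) (l : ℕ) : Prop :=
  ∀ i, l ≤ i → C.LinExactZero k i ∧ C.LinExactSucc k i

end

/-- projective dimension of a left `A`-module -/
noncomputable def pdim (A : Type) [Ring A] (M : Type) [AddCommGroup M] [Module A M] :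
    WithBot ℕ∞ := CategoryTheory.projectiveDimension (ModuleCat.of A M)

/-- the little finitistic dimension of `A` is finite -/
def FindimFinite (A : Type) [Ring A] : Prop :=
  ∃ b : ℕ, ∀ (M : Type) [AddCommGroup M] [Module A M] [Module.Finite A M],
    pdim A M ≠ ⊤ → pdim A M ≤ (b : WithBot ℕ∞)

/-- the linearity defect is bounded on the modules of finite projective dimension -/
def LinDefBounded (k : Type) [Field k] {A : Type} [Ring A] [Algebra k A] {r : ℕ}
    (e : Fin r → A) : Prop :=
  ∃ b : ℕ, ∀ (M : Type) [AddCommGroup M] [Module A M] [Module.Finite A M],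
    pdim A M ≠ ⊤ → ∀ R : MinRes e M, R.toCx.LinDefLE k b

end Vale.Agent.P176
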